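import Mathlib.AlgebraicTopology.SingularHomology.Basic
import Mathlib.Algebra.Homology.ShortComplex.Exact
import Mathlib.Algebra.Category.ModuleCat.Colimits
import Mathlib.Algebra.Category.ModuleCat.Abelian
import Mathlib.Algebra.Category.ModuleCat.Injective
import Mathlib.LinearAlgebra.Dual.Lemmas
import Mathlib.Algebra.Field.ZMod

/-!
# P263, statement layer: homology and function cochains

The relation between Mathlib's homology of a simplicial set with coefficients in `𝔽₂` and the
cochains `X _⦋n⦌ → 𝔽₂`.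
-/

open CategoryTheory Limits Simplicial

namespace Vale.Agent.P263.T0

universe v u

section Pair

variable {C : Type u} [Category.{v} C] [Abelian C] {J : C}

/-- The evaluation of a cocycle on homology. -/
noncomputable def pair (K : ChainComplex C ℕ) {n : ℕ} (l : K.X n ⟶ J)
    (h : K.d (n + 1) n ≫ l = 0) : K.homology n ⟶ J :=
  K.homologyι n ≫ K.descOpcycles l (n + 1) (by simp) h

theorem pair_surjective [Injective J] (K : ChainComplex C ℕ) {n : ℕ} (m : K.homology n ⟶ J) :
    ∃ (l : K.X n ⟶ J) (h : K.d (n + 1) n ≫ l = 0), pair K l h = m := by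
  have h : K.d (n + 1) n ≫ K.pOpcycles n ≫ Injective.factorThru m (K.homologyι n) = 0 := by simp
  refine ⟨K.pOpcycles n ≫ Injective.factorThru m (K.homologyι n), h, ?_⟩
  have : K.descOpcycles _ (n + 1) (by simp) h = Injective.factorThru m (K.homologyι n) := by
    rw [← cancel_epi (K.pOpcycles n), K.p_descOpcycles]
  rw [pair, this, Injective.comp_factorThru]

theorem pair_eq_zero_iff [Injective J] (K : ChainComplex C ℕ) {n : ℕ} (l : K.X (n + 1) ⟶ J)
    (h : K.d (n + 2) (n + 1) ≫ l = 0) :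
    pair K l h = 0 ↔ ∃ m : K.X n ⟶ J, l = K.d (n + 1) n ≫ m := by
  constructor
  · intro h0
    have hex : (ShortComplex.mk (K.homologyι (n + 1)) (K.fromOpcycles (n + 1) n)
        (K.homologyι_comp_fromOpcycles (n + 1) n)).Exact :=
      ShortComplex.exact_of_f_is_kernel _ (K.homologyIsKernel (n + 1) n (by simp))
    refine ⟨hex.descToInjective (K.descOpcycles l (n + 2) (by simp) h) h0, ?_⟩
    have := hex.comp_descToInjective (K.descOpcycles l (n + 2) (by simp) h) h0
    dsimp at this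
    rw [← K.p_fromOpcycles, Category.assoc, this, K.p_descOpcycles]
  · rintro ⟨m, rfl⟩
    exact K.homologyι_descOpcycles_eq_zero_of_boundary _ _ _ m rfl

theorem pair_zero_eq_zero_iff (K : ChainComplex C ℕ) (l : K.X 0 ⟶ J)
    (h : K.d 1 0 ≫ l = 0) : pair K l h = 0 ↔ l = 0 := by
  constructor
  · intro h0
    have : IsIso (K.homologyι 0) := K.isIso_homologyι 0 _ rfl (by simp)
    have h1 : K.descOpcycles l 1 (by simp) h = 0 := by
      rw [← cancel_epi (K.homologyι 0), comp_zero]
      exact h0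
    rw [← K.p_descOpcycles l 1 (by simp) h, h1, comp_zero]
  · rintro rfl
    have h1 : K.descOpcycles (0 : K.X 0 ⟶ J) 1 (by simp) h = 0 := by
      rw [← cancel_epi (K.pOpcycles 0), K.p_descOpcycles, comp_zero]
    rw [pair, h1, comp_zero]

theorem pair_naturality {K L : ChainComplex C ℕ} (φ : K ⟶ L) {n : ℕ} (l : L.X n ⟶ J)
    (h : L.d (n + 1) n ≫ l = 0) :
    HomologicalComplex.homologyMap φ n ≫ pair L l h =
      pair K (φ.f n ≫ l) (by rw [← φ.comm_assoc, h, comp_zero]) := by
  rw [pair, pair, HomologicalComplex.homologyι_naturality_assoc]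
  congr 1
  rw [← cancel_epi (K.pOpcycles n), HomologicalComplex.p_opcyclesMap_assoc, L.p_descOpcycles,
    K.p_descOpcycles]

theorem pair_sub (K : ChainComplex C ℕ) {n : ℕ} (l l' : K.X n ⟶ J) (h : K.d (n + 1) n ≫ l = 0)
    (h' : K.d (n + 1) n ≫ l' = 0) :
    pair K (l - l') (by rw [Preadditive.comp_sub, h, h', sub_zero]) = pair K l h - pair K l' h' := by
  have hs : K.descOpcycles (l - l') (n + 1) (by simp)
      (by rw [Preadditive.comp_sub, h, h', sub_zero]) =
      K.descOpcycles l (n + 1) (by simp) h - K.descOpcycles l' (n + 1) (by simp) h' := by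
    rw [← cancel_epi (K.pOpcycles n), K.p_descOpcycles, Preadditive.comp_sub, K.p_descOpcycles,
      K.p_descOpcycles]
  rw [pair, pair, pair, hs, Preadditive.comp_sub]

theorem pair_eq_iff [Injective J] (K : ChainComplex C ℕ) {n : ℕ} (l l' : K.X (n + 1) ⟶ J)
    (h : K.d (n + 2) (n + 1) ≫ l = 0) (h' : K.d (n + 2) (n + 1) ≫ l' = 0) :
    pair K l h = pair K l' h' ↔ ∃ m : K.X n ⟶ J, l = l' + K.d (n + 1) n ≫ m := by
  rw [← sub_eq_zero, ← pair_sub, pair_eq_zero_iff]
  refine exists_congr fun m => ?_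
  rw [sub_eq_iff_eq_add, add_comm l']

theorem pair_zero_eq_iff (K : ChainComplex C ℕ) (l l' : K.X 0 ⟶ J)
    (h : K.d 1 0 ≫ l = 0) (h' : K.d 1 0 ≫ l' = 0) :
    pair K l h = pair K l' h' ↔ l = l' := by
  rw [← sub_eq_zero, ← pair_sub, pair_zero_eq_zero_iff, sub_eq_zero]

end Pair

section VectorSpaces

variable (k : Type u) [Field k]

/-- The ground field as an object of `ModuleCat k`. -/
abbrev gr : ModuleCat.{u} k := ModuleCat.of k k

instance injective_gr : Injective (gr k) := by
  have : Module.Injective k k := by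
    refine ⟨fun X Y _ _ _ _ f hf g => ?_⟩
    obtain ⟨r, hr⟩ := LinearMap.exists_leftInverse_of_injective f (LinearMap.ker_eq_bot.2 hf)
    exact ⟨g ∘ₗ r, fun x => congrArg g (LinearMap.congr_fun hr x)⟩
  exact Module.injective_object_of_injective_module k k

variable {k}

theorem eq_zero_iff_dual {A B : ModuleCat.{u} k} (f : A ⟶ B) :
    f = 0 ↔ ∀ l : B ⟶ gr k, f ≫ l = 0 := by
  constructor
  · rintro rfl l
    exact zero_comp
  · intro h
    ext x
    rw [ModuleCat.hom_zero, LinearMap.zero_apply, ← Module.forall_dual_apply_eq_zero_iff k]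
    intro m
    exact LinearMap.congr_fun (congrArg ModuleCat.Hom.hom (h (ModuleCat.ofHom m))) x

theorem injective_iff_dual {A B : ModuleCat.{u} k} (f : A ⟶ B) :
    Function.Injective f.hom ↔ ∀ l : A ⟶ gr k, ∃ m : B ⟶ gr k, f ≫ m = l := by
  constructor
  · intro h l
    have : Mono f := (ModuleCat.mono_iff_injective f).2 h
    exact ⟨Injective.factorThru l f, Injective.comp_factorThru l f⟩
  · intro h
    rw [injective_iff_map_eq_zero]
    intro x hx
    rw [← Module.forall_dual_apply_eq_zero_iff k]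
    intro l
    obtain ⟨m, hm⟩ := h (ModuleCat.ofHom l)
    have := LinearMap.congr_fun (congrArg ModuleCat.Hom.hom hm) x
    rw [ModuleCat.hom_comp, LinearMap.comp_apply, hx, map_zero] at this
    exact this.symm

theorem surjective_iff_dual {A B : ModuleCat.{u} k} (f : A ⟶ B) :
    Function.Surjective f.hom ↔ ∀ l : B ⟶ gr k, f ≫ l = 0 → l = 0 := by
  constructor
  · intro h l hl
    have : Epi f := (ModuleCat.epi_iff_surjective f).2 h
    rw [← cancel_epi f, hl, comp_zero]
  · intro h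
    rw [← LinearMap.dualMap_injective_iff, injective_iff_map_eq_zero]
    intro l hl
    have := h (ModuleCat.ofHom l) (by
      ext x
      exact LinearMap.congr_fun hl x)
    exact congrArg ModuleCat.Hom.hom this

end VectorSpaces

/-! ### Simplicial sets -/

section SSet

/-- The coefficient object `𝔽₂`. -/
abbrev RF2 : ModuleCat.{0} (ZMod 2) := ModuleCat.of (ZMod 2) (ZMod 2)

/-- The coboundary of a function on simplices. -/
def cobd (X : SSet.{0}) {n : ℕ} (c : X _⦋n⦌ → ZMod 2) (x : X _⦋n + 1⦌) : ZMod 2 :=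
  ∑ i : Fin (n + 2), c (X.δ i x)

/-- Pull back of functions on simplices. -/
def pull {X Y : SSet.{0}} (f : X ⟶ Y) {n : ℕ} (c : Y _⦋n⦌ → ZMod 2) (x : X _⦋n⦌) : ZMod 2 :=
  c (f.app _ x)

variable (X : SSet.{0}) {Y : SSet.{0}} (f : X ⟶ Y)

/-- The linear form on chains of a function on simplices. -/
noncomputable def ev {n : ℕ} (c : X _⦋n⦌ → ZMod 2) : (X.chainComplex RF2).X n ⟶ RF2 :=
  (X.isColimitChainComplexXCofan RF2 n).desc (Cofan.mk _ fun x => c x • 𝟙 RF2)

theorem ι_ev {n : ℕ} (c : X _⦋n⦌ → ZMod 2) (x : X _⦋n⦌) :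
    X.ιChainComplex x ≫ ev X c = c x • 𝟙 RF2 :=
  (X.isColimitChainComplexXCofan RF2 n).fac _ ⟨x⟩

/-- The function of a linear form on chains. -/
noncomputable def unev {n : ℕ} (l : (X.chainComplex RF2).X n ⟶ RF2) (x : X _⦋n⦌) : ZMod 2 :=
  (X.ιChainComplex x ≫ l).hom (1 : ZMod 2)

theorem smul_id_hom (a : ZMod 2) : (a • 𝟙 RF2).hom (1 : ZMod 2) = a := by
  show a • (1 : ZMod 2) = a
  rw [smul_eq_mul, mul_one]

theorem eq_smul_id (g : RF2 ⟶ RF2) : g = (g.hom (1 : ZMod 2) : ZMod 2) • 𝟙 RF2 := by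
  ext
  rw [smul_id_hom]

theorem ev_unev {n : ℕ} (l : (X.chainComplex RF2).X n ⟶ RF2) : ev X (unev X l) = l := by
  refine SSet.chainComplex_hom_ext fun x => ?_
  rw [ι_ev, unev, ← eq_smul_id]

theorem unev_ev {n : ℕ} (c : X _⦋n⦌ → ZMod 2) : unev X (ev X c) = c := by
  funext x
  rw [unev, ι_ev, smul_id_hom]

theorem ev_injective {n : ℕ} {c c' : X _⦋n⦌ → ZMod 2} (h : ev X c = ev X c') : c = c' := by
  rw [← unev_ev X c, h, unev_ev]

theorem ev_add {n : ℕ} (c c' : X _⦋n⦌ → ZMod 2) : ev X (c + c') = ev X c + ev X c' := by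
  refine SSet.chainComplex_hom_ext fun x => ?_
  rw [Preadditive.comp_add, ι_ev, ι_ev, ι_ev, Pi.add_apply, add_smul]

theorem ev_zero {n : ℕ} : ev X (0 : X _⦋n⦌ → ZMod 2) = 0 := by
  refine SSet.chainComplex_hom_ext fun x => ?_
  rw [ι_ev, Pi.zero_apply, zero_smul, comp_zero]

theorem neg_one_pow_smul (A B : ModuleCat.{0} (ZMod 2)) (i : ℕ) (g : A ⟶ B) :
    (-1 : ℤ) ^ i • g = g := by
  have h1 : (-1 : ℤ) • g = g := by
    ext x
    show (-1 : ℤ) • g.hom x = g.hom x
    rw [neg_one_smul]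
    have h2 : (2 : ZMod 2) • g.hom x = 0 := by
      have : (2 : ZMod 2) = 0 := rfl
      rw [this, zero_smul]
    rw [two_smul] at h2
    exact neg_eq_of_add_eq_zero_left h2
  induction i with
  | zero => rw [pow_zero, one_smul]
  | succ i ih => rw [pow_succ, mul_smul, h1, ih]

theorem d_ev {n : ℕ} (c : X _⦋n⦌ → ZMod 2) :
    (X.chainComplex RF2).d (n + 1) n ≫ ev X c = ev X (cobd X c) := by
  refine SSet.chainComplex_hom_ext fun x => ?_
  rw [SSet.ιChainComplex_d_assoc, ι_ev, Preadditive.sum_comp, cobd, Finset.sum_smul]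
  refine Finset.sum_congr rfl fun i _ => ?_
  rw [neg_one_pow_smul, ι_ev]

theorem map_ev {n : ℕ} (c : Y _⦋n⦌ → ZMod 2) :
    (SSet.chainComplexMap f RF2).f n ≫ ev Y c = ev X (pull f c) := by
  refine SSet.chainComplex_hom_ext fun x => ?_
  rw [SSet.ι_chainComplexMap_f_assoc, ι_ev, ι_ev, pull]

theorem cobd_eq_zero_iff {n : ℕ} (c : X _⦋n⦌ → ZMod 2) :
    cobd X c = 0 ↔ (X.chainComplex RF2).d (n + 1) n ≫ ev X c = 0 := by
  rw [d_ev]
  constructor
  · intro h
    rw [h, ev_zero]
  · intro h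
    exact ev_injective X (h.trans (ev_zero X).symm)

/-- Coboundaries (in degree `0` only the function `0`). -/
def IsCobd (X : SSet.{0}) {n : ℕ} : (X _⦋n⦌ → ZMod 2) → Prop :=
  Nat.casesOn (motive := fun n => (X _⦋n⦌ → ZMod 2) → Prop) n (fun c => c = 0)
    (fun _ c => ∃ b, c = cobd X b)

theorem isCobd_zero (c : X _⦋0⦌ → ZMod 2) : IsCobd X c ↔ c = 0 := Iff.rfl

theorem isCobd_succ {n : ℕ} (c : X _⦋n + 1⦌ → ZMod 2) :
    IsCobd X c ↔ ∃ b, c = cobd X b := Iff.rfl

/-- The evaluation of a cocycle on homology. -/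
noncomputable def evH {n : ℕ} (c : X _⦋n⦌ → ZMod 2) (hc : cobd X c = 0) :
    X.homology RF2 n ⟶ RF2 :=
  pair (X.chainComplex RF2) (ev X c) ((cobd_eq_zero_iff X c).1 hc)

theorem evH_surjective {n : ℕ} (m : X.homology RF2 n ⟶ RF2) :
    ∃ (c : X _⦋n⦌ → ZMod 2) (hc : cobd X c = 0), evH X c hc = m := by
  have : Injective RF2 := injective_gr (ZMod 2)
  obtain ⟨l, h, hl⟩ := pair_surjective (X.chainComplex RF2) m
  have e : ev X (unev X l) = l := ev_unev X l
  refine ⟨unev X l, (cobd_eq_zero_iff X _).2 (by rw [e]; exact h), ?_⟩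
  rw [evH, ← hl]
  congr 1

theorem evH_eq_zero_iff {n : ℕ} (c : X _⦋n⦌ → ZMod 2) (hc : cobd X c = 0) :
    evH X c hc = 0 ↔ IsCobd X c := by
  have : Injective RF2 := injective_gr (ZMod 2)
  cases n with
  | zero =>
    rw [evH, pair_zero_eq_zero_iff]
    constructor
    · intro h
      exact ev_injective X (h.trans (ev_zero X).symm)
    · intro h
      rw [show c = 0 from h, ev_zero]
  | succ n =>
    rw [evH, pair_eq_zero_iff]
    constructor
    · rintro ⟨m, hm⟩
      refine ⟨unev X m, ev_injective X ?_⟩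
      rw [hm, ← d_ev, ev_unev]
    · rintro ⟨b, rfl⟩
      exact ⟨ev X b, (d_ev X b).symm⟩

theorem pull_cobd {n : ℕ} (c : Y _⦋n⦌ → ZMod 2) : cobd X (pull f c) = pull f (cobd Y c) := by
  funext x
  refine Finset.sum_congr rfl fun i _ => ?_
  rw [pull]
  congr 1
  exact ConcreteCategory.congr_hom (f.naturality (SimplexCategory.δ i).op) x

theorem pull_cocycle {n : ℕ} {c : Y _⦋n⦌ → ZMod 2} (hc : cobd Y c = 0) :
    cobd X (pull f c) = 0 := by
  rw [pull_cobd, hc]
  rfl

theorem homologyMap_evH {n : ℕ} (c : Y _⦋n⦌ → ZMod 2) (hc : cobd Y c = 0) :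
    SSet.homologyMap f RF2 n ≫ evH Y c hc = evH X (pull f c) (pull_cocycle X f hc) := by
  rw [evH, SSet.homologyMap, pair_naturality, evH]
  congr 1
  exact map_ev X f c

theorem evH_add {n : ℕ} (c c' : X _⦋n⦌ → ZMod 2) (hc : cobd X c = 0) (hc' : cobd X c' = 0)
    (h : cobd X (c + c') = 0) : evH X (c + c') h = evH X c hc + evH X c' hc' := by
  have e : ∀ a b : X.homology RF2 n ⟶ RF2, a + b = a - b := by
    intro a b
    ext x
    show a.hom x + b.hom x = a.hom x - b.hom x
    exact (CharTwo.sub_eq_add _ _).symm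
  rw [e, evH, evH, evH, ← pair_sub]
  congr 1
  rw [ev_add]
  ext x
  show (ev X c).hom x + (ev X c').hom x = (ev X c).hom x - (ev X c').hom x
  exact (CharTwo.sub_eq_add _ _).symm

/-- The map in homology is zero iff the pull back of every cocycle is a coboundary. -/
theorem homologyMap_eq_zero_iff (n : ℕ) :
    SSet.homologyMap f RF2 n = 0 ↔
      ∀ c : Y _⦋n⦌ → ZMod 2, cobd Y c = 0 → IsCobd X (pull f c) := by
  rw [eq_zero_iff_dual]
  constructor
  · intro h c hc
    rw [← evH_eq_zero_iff X _ (pull_cocycle X f hc), ← homologyMap_evH X f c hc]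
    exact h _
  · intro h l
    obtain ⟨c, hc, rfl⟩ := evH_surjective Y l
    have := (evH_eq_zero_iff X _ (pull_cocycle X f hc)).2 (h c hc)
    rw [← homologyMap_evH] at this
    exact this

/-- The map in homology is surjective iff the map in cohomology is injective. -/
theorem homologyMap_surjective_iff (n : ℕ) :
    Function.Surjective (SSet.homologyMap f RF2 n).hom ↔
      ∀ c : Y _⦋n⦌ → ZMod 2, cobd Y c = 0 → IsCobd X (pull f c) → IsCobd Y c := by
  rw [surjective_iff_dual]
  constructor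
  · intro h c hc h1
    rw [← evH_eq_zero_iff Y _ hc]
    apply h
    rw [← evH_eq_zero_iff X _ (pull_cocycle X f hc), ← homologyMap_evH] at h1
    exact h1
  · intro h l hl
    obtain ⟨c, hc, rfl⟩ := evH_surjective Y l
    rw [evH_eq_zero_iff]
    apply h c hc
    rw [← evH_eq_zero_iff X _ (pull_cocycle X f hc), ← homologyMap_evH]
    exact hl

/-- The map in homology is injective iff the map in cohomology is surjective. -/
theorem homologyMap_injective_iff (n : ℕ) :
    Function.Injective (SSet.homologyMap f RF2 n).hom ↔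
      ∀ c : X _⦋n⦌ → ZMod 2, cobd X c = 0 →
        ∃ c' : Y _⦋n⦌ → ZMod 2, cobd Y c' = 0 ∧ IsCobd X (c + pull f c') := by
  have key : ∀ (c : X _⦋n⦌ → ZMod 2) (hc : cobd X c = 0) (c' : Y _⦋n⦌ → ZMod 2)
      (hc' : cobd Y c' = 0), SSet.homologyMap f RF2 n ≫ evH Y c' hc' = evH X c hc ↔
        IsCobd X (c + pull f c') := by
    intro c hc c' hc'
    have h0 : cobd X (c + pull f c') = 0 := by
      have : cobd X (c + pull f c') = cobd X c + cobd X (pull f c') := by
        funext x
        show ∑ i, (c + pull f c') (X.δ i x) = ∑ i, c (X.δ i x) + ∑ i, pull f c' (X.δ i x)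
        rw [← Finset.sum_add_distrib]
        rfl
      rw [this, hc, pull_cocycle X f hc', add_zero]
    rw [← evH_eq_zero_iff X _ h0, evH_add X _ _ hc (pull_cocycle X f hc'), homologyMap_evH]
    constructor
    · intro h
      rw [← h]
      ext x
      exact CharTwo.add_self_eq_zero _
    · intro h
      ext x
      have := LinearMap.congr_fun (congrArg ModuleCat.Hom.hom h) x
      exact (CharTwo.add_eq_zero.1 this).symm
  rw [injective_iff_dual]
  constructor
  · intro h c hc
    obtain ⟨m, hm⟩ := h (evH X c hc)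
    obtain ⟨c', hc', rfl⟩ := evH_surjective Y m
    exact ⟨c', hc', (key c hc c' hc').1 hm⟩
  · intro h l
    obtain ⟨c, hc, rfl⟩ := evH_surjective X l
    obtain ⟨c', hc', h1⟩ := h c hc
    exact ⟨evH Y c' hc', (key c hc c' hc').2 h1⟩

theorem homology_subsingleton_iff (n : ℕ) :
    Subsingleton ((X.homology RF2 n : ModuleCat.{0} (ZMod 2)) : Type) ↔ ∀ c : X _⦋n⦌ → ZMod 2, cobd X c = 0 → IsCobd X c := by
  constructor
  · intro h c hc
    rw [← evH_eq_zero_iff X _ hc]
    ext x
    rw [h.elim x 0, map_zero, map_zero]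
  · intro h
    refine ⟨fun x y => ?_⟩
    rw [← sub_eq_zero, ← Module.forall_dual_apply_eq_zero_iff (ZMod 2)]
    intro l
    obtain ⟨c, hc, hl⟩ := evH_surjective X (ModuleCat.ofHom l)
    rw [(evH_eq_zero_iff X _ hc).2 (h c hc)] at hl
    have := LinearMap.congr_fun (congrArg ModuleCat.Hom.hom hl) (x - y)
    exact this.symm

end SSet

end Vale.Agent.P263.T0
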