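import Mathlib.Analysis.Normed.Group.Basic
import Mathlib.Analysis.Normed.Module.FiniteDimension
import Mathlib.Topology.Compactification.OnePoint.Basic
import Mathlib.Topology.UnitInterval
import Mathlib.Topology.Homotopy.Basic

/-!
# P263, statement layer: collapsing the complement of a ball

`E` is a finite dimensional normed space over `ℝ`, `E⁺ = OnePoint E`.  For `a : E` the map
`kap a : E⁺ → E⁺` sends `v` with `‖v - a‖ < 1` to `(v - a) / (1 - ‖v - a‖)` and the complement of
the open unit ball with centre `a` to `∞`.  It is homotopic to the identity relative to `∞`.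
-/

open Topology Filter OnePoint

set_option linter.unusedSectionVars false

namespace Vale.Agent.P263.T0.Ball

variable {E : Type*} [NormedAddCommGroup E] [NormedSpace ℝ E] [FiniteDimensional ℝ E]

/-- a function which vanishes exactly at `∞` -/
noncomputable def rho (x : OnePoint E) : ℝ := x.elim 0 (fun v => (1 + ‖v‖)⁻¹)

@[simp] theorem rho_infty : rho (∞ : OnePoint E) = 0 := rfl

@[simp] theorem rho_coe (v : E) : rho (v : OnePoint E) = (1 + ‖v‖)⁻¹ := rfl

theorem rho_nonneg (x : OnePoint E) : 0 ≤ rho x := by
  induction x using OnePoint.rec with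
  | infty => exact le_rfl
  | coe v => rw [rho_coe]; positivity

theorem rho_pos (v : E) : 0 < rho (v : OnePoint E) := by
  rw [rho_coe]; positivity

theorem rho_eq_zero {x : OnePoint E} : rho x = 0 ↔ x = ∞ := by
  induction x using OnePoint.rec with
  | infty => simp
  | coe v =>
    constructor
    · intro h
      exact absurd h (rho_pos v).ne'
    · intro h
      exact absurd h (OnePoint.coe_ne_infty v)

theorem continuous_rho : Continuous (rho : OnePoint E → ℝ) := by
  have : ProperSpace E := FiniteDimensional.proper ℝ E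
  rw [OnePoint.continuous_iff]
  refine ⟨?_, ?_⟩
  · rw [coclosedCompact_eq_cocompact]
    have h1 : Tendsto (fun v : E => 1 + ‖v‖) (cocompact E) atTop :=
      tendsto_atTop_add_const_left _ _ (tendsto_norm_cocompact_atTop)
    exact h1.inv_tendsto_atTop
  · show Continuous fun v : E => (1 + ‖v‖)⁻¹
    refine Continuous.inv₀ (by fun_prop) fun v => ?_
    positivity

theorem nhds_infty : 𝓝 (∞ : OnePoint E) = comap rho (𝓝 0) := by
  have h := (continuous_rho (E := E)).isClosedMap.comap_nhds_eq continuous_rho 0
  have e : (rho : OnePoint E → ℝ) ⁻¹' {0} = {∞} := by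
    ext x
    simp [rho_eq_zero]
  rw [e, nhdsSet_singleton] at h
  exact h.symm

theorem tendsto_infty_iff {α : Type*} {l : Filter α} {F : α → OnePoint E} :
    Tendsto F l (𝓝 ∞) ↔ Tendsto (fun a => rho (F a)) l (𝓝 0) := by
  rw [nhds_infty, tendsto_comap_iff]
  rfl

/-- the homotopy: `hk a s v = (v - s a) / (1 - s ‖v - s a‖)` -/
noncomputable def hk (a : E) (s : ℝ) (x : OnePoint E) : OnePoint E :=
  x.elim ∞ (fun v => if s * ‖v - s • a‖ < 1 then
    (((1 - s * ‖v - s • a‖)⁻¹ • (v - s • a) : E) : OnePoint E) else ∞)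

@[simp] theorem hk_infty (a : E) (s : ℝ) : hk a s ∞ = ∞ := rfl

theorem hk_coe (a : E) (s : ℝ) (v : E) : hk a s (v : OnePoint E) =
    if s * ‖v - s • a‖ < 1 then
    (((1 - s * ‖v - s • a‖)⁻¹ • (v - s • a) : E) : OnePoint E) else ∞ := rfl

theorem hk_zero (a : E) (x : OnePoint E) : hk a 0 x = x := by
  induction x using OnePoint.rec with
  | infty => rfl
  | coe v => simp [hk_coe]

/-- the translated function `rho` -/
noncomputable def rr (a : E) (s : ℝ) (x : OnePoint E) : ℝ := x.elim 0 (fun v => (1 + ‖v - s • a‖)⁻¹)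

theorem rho_hk (a : E) {s : ℝ} (hs : 0 ≤ s) (x : OnePoint E) :
    rho (hk a s x) = max (rr a s x - s * (1 - rr a s x)) 0 /
      (max (rr a s x - s * (1 - rr a s x)) 0 + (1 - rr a s x)) := by
  induction x using OnePoint.rec with
  | infty =>
    rw [hk_infty, rho_infty]
    show (0 : ℝ) = max (0 - s * (1 - 0)) 0 / _
    rw [max_eq_right (by linarith), zero_div]
  | coe v =>
    have hr : rr a s (v : OnePoint E) = (1 + ‖v - s • a‖)⁻¹ := rfl
    rw [hr, hk_coe]
    set t := ‖v - s • a‖ with ht
    have ht0 : 0 ≤ t := norm_nonneg _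
    have h1 : (1 + t)⁻¹ - s * (1 - (1 + t)⁻¹) = (1 - s * t) / (1 + t) := by
      field_simp
      ring
    have h2 : 1 - (1 + t)⁻¹ = t / (1 + t) := by
      field_simp
      ring
    rw [h1, h2]
    split_ifs with h
    · have h3 : 0 < 1 - s * t := by linarith
      rw [max_eq_left (by positivity), rho_coe, norm_smul, norm_inv, ← ht,
        Real.norm_of_nonneg h3.le]
      field_simp
    · have h3 : (1 - s * t) / (1 + t) ≤ 0 :=
        div_nonpos_of_nonpos_of_nonneg (by linarith) (by positivity)
      rw [max_eq_right h3, zero_div, rho_infty]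

theorem rr_le (a : E) {s : ℝ} (hs : 0 ≤ s) (hs1 : s ≤ 1) (x : OnePoint E) :
    rr a s x ≤ (1 + ‖a‖) * rho x := by
  induction x using OnePoint.rec with
  | infty => rw [rho_infty, mul_zero]; exact le_rfl
  | coe v =>
    show (1 + ‖v - s • a‖)⁻¹ ≤ (1 + ‖a‖) * (1 + ‖v‖)⁻¹
    have h1 : ‖v‖ ≤ ‖v - s • a‖ + ‖a‖ := by
      calc ‖v‖ = ‖(v - s • a) + s • a‖ := by rw [sub_add_cancel]
        _ ≤ ‖v - s • a‖ + ‖s • a‖ := norm_add_le _ _
        _ ≤ ‖v - s • a‖ + ‖a‖ := by
          rw [norm_smul, Real.norm_of_nonneg hs]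
          nlinarith [norm_nonneg a]
    rw [← div_eq_mul_inv, inv_eq_one_div, div_le_div_iff₀ (by positivity) (by positivity)]
    nlinarith [norm_nonneg a, norm_nonneg (v - s • a)]

theorem rr_nonneg (a : E) (s : ℝ) (x : OnePoint E) : 0 ≤ rr a s x := by
  induction x using OnePoint.rec with
  | infty => exact le_rfl
  | coe v => show 0 ≤ (1 + ‖v - s • a‖)⁻¹; positivity

theorem rr_le_one (a : E) (s : ℝ) (x : OnePoint E) : rr a s x ≤ 1 := by
  induction x using OnePoint.rec with
  | infty => exact zero_le_one
  | coe v =>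
    show (1 + ‖v - s • a‖)⁻¹ ≤ 1
    exact inv_le_one_of_one_le₀ (by linarith [norm_nonneg (v - s • a)])

/-- the function `rr` is continuous on `[0,1] × E⁺` -/
theorem continuous_rr (a : E) : Continuous (fun p : unitInterval × OnePoint E => rr a p.1 p.2) := by
  rw [continuous_iff_continuousAt]
  rintro ⟨s, x⟩
  induction x using OnePoint.rec with
  | infty =>
    show Tendsto _ _ (𝓝 0)
    have h0 : Tendsto (fun p : unitInterval × OnePoint E => (1 + ‖a‖) * rho p.2)
        (𝓝 (s, ∞)) (𝓝 0) := by
      have : Continuous (fun p : unitInterval × OnePoint E => (1 + ‖a‖) * rho p.2) :=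
        continuous_const.mul (continuous_rho.comp continuous_snd)
      have h := this.tendsto (s, ∞)
      simpa using h
    exact squeeze_zero (fun p => rr_nonneg a p.1 p.2)
      (fun p => rr_le a p.1.2.1 p.1.2.2 p.2) h0
  | coe v =>
    have e : IsOpenEmbedding (Prod.map (id : unitInterval → unitInterval)
        ((↑) : E → OnePoint E)) := IsOpenEmbedding.id.prodMap OnePoint.isOpenEmbedding_coe
    have := e.continuousAt_iff (g := fun p : unitInterval × OnePoint E => rr a p.1 p.2)
      (x := (s, v))
    refine this.1 ?_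
    have h : Continuous (fun p : unitInterval × E => (1 + ‖p.2 - (p.1 : ℝ) • a‖)⁻¹) := by
      refine Continuous.inv₀ (by fun_prop) fun p => ?_
      positivity
    exact h.continuousAt

/-- **The homotopy is continuous.** -/
theorem continuous_hk (a : E) :
    Continuous (fun p : unitInterval × OnePoint E => hk a p.1 p.2) := by
  rw [continuous_iff_continuousAt]
  rintro ⟨s, x⟩
  by_cases h : hk a s x = ∞
  · show Tendsto _ _ (𝓝 (hk a s x))
    rw [h, tendsto_infty_iff]
    have hc : Continuous (fun p : unitInterval × OnePoint E => rho (hk a p.1 p.2)) := by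
      have : (fun p : unitInterval × OnePoint E => rho (hk a p.1 p.2)) =
          fun p => max (rr a p.1 p.2 - p.1 * (1 - rr a p.1 p.2)) 0 /
            (max (rr a p.1 p.2 - p.1 * (1 - rr a p.1 p.2)) 0 + (1 - rr a p.1 p.2)) := by
        funext p
        exact rho_hk a p.1.2.1 p.2
      rw [this]
      have hr := continuous_rr a
      have hs : Continuous (fun p : unitInterval × OnePoint E => (p.1 : ℝ)) :=
        continuous_subtype_val.comp continuous_fst
      have hn : Continuous (fun p : unitInterval × OnePoint E =>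
          max (rr a p.1 p.2 - p.1 * (1 - rr a p.1 p.2)) 0) :=
        (hr.sub (hs.mul (continuous_const.sub hr))).max continuous_const
      refine hn.div (hn.add (continuous_const.sub hr)) fun p => ?_
      have h1 := rr_le_one a p.1 p.2
      rcases h1.eq_or_lt with h1 | h1
      · rw [h1]
        norm_num
      · have h2 : (0 : ℝ) ≤ max (rr a p.1 p.2 - p.1 * (1 - rr a p.1 p.2)) 0 := le_max_right _ _
        linarith
    have := hc.tendsto (s, x)
    simp only [h, rho_infty] at this
    exact this
  · induction x using OnePoint.rec with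
    | infty => exact absurd rfl h
    | coe v =>
      have e : IsOpenEmbedding (Prod.map (id : unitInterval → unitInterval)
          ((↑) : E → OnePoint E)) := IsOpenEmbedding.id.prodMap OnePoint.isOpenEmbedding_coe
      have := e.continuousAt_iff (g := fun p : unitInterval × OnePoint E => hk a p.1 p.2)
        (x := (s, v))
      refine this.1 ?_
      have hlt : (s : ℝ) * ‖v - (s : ℝ) • a‖ < 1 := by
        by_contra hn
        apply h
        rw [hk_coe, if_neg hn]
      have hg : Continuous (fun p : unitInterval × E => (p.1 : ℝ) * ‖p.2 - (p.1 : ℝ) • a‖) := by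
        fun_prop
      have hev : ∀ᶠ p : unitInterval × E in 𝓝 (s, v), (p.1 : ℝ) * ‖p.2 - (p.1 : ℝ) • a‖ < 1 :=
        hg.continuousAt.eventually_lt continuousAt_const hlt
      have hca : ContinuousAt (fun p : unitInterval × E =>
          (((1 - (p.1 : ℝ) * ‖p.2 - (p.1 : ℝ) • a‖)⁻¹ • (p.2 - (p.1 : ℝ) • a) : E) :
            OnePoint E)) (s, v) := by
        refine OnePoint.continuous_coe.continuousAt.comp ?_
        refine ContinuousAt.smul (ContinuousAt.inv₀ (by fun_prop) ?_) (by fun_prop)
        show (1 : ℝ) - (s : ℝ) * ‖v - (s : ℝ) • a‖ ≠ 0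
        linarith
      refine hca.congr ?_
      filter_upwards [hev] with p hp
      show _ = hk a p.1 (p.2 : OnePoint E)
      rw [hk_coe, if_pos hp]

/-- The collapse onto the open unit ball with centre `a`. -/
noncomputable def kap (a : E) : C(OnePoint E, OnePoint E) :=
  ⟨hk a 1, (continuous_hk a).comp (Continuous.prodMk (continuous_const (y := (1 : unitInterval)))
    continuous_id)⟩

theorem kap_infty (a : E) : kap a ∞ = ∞ := rfl

theorem kap_coe (a v : E) : kap a (v : OnePoint E) =
    if ‖v - a‖ < 1 then (((1 - ‖v - a‖)⁻¹ • (v - a) : E) : OnePoint E) else ∞ := by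
  show hk a 1 (v : OnePoint E) = _
  rw [hk_coe]
  simp only [one_smul, one_mul]

theorem kap_of_le {a v : E} (h : 1 ≤ ‖v - a‖) : kap a (v : OnePoint E) = ∞ := by
  rw [kap_coe, if_neg (not_lt.2 h)]

/-- The homotopy from the identity to `kap a`. -/
noncomputable def kapHomotopy (a : E) :
    ContinuousMap.Homotopy (ContinuousMap.id (OnePoint E)) (kap a) where
  toFun p := hk a p.1 p.2
  continuous_toFun := continuous_hk a
  map_zero_left x := hk_zero a x
  map_one_left _ := rfl

theorem kapHomotopy_infty (a : E) (t : unitInterval) : kapHomotopy a (t, ∞) = ∞ := rfl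

/-- the closed unit ball as a closed subset of the one-point compactification -/
def cb (a : E) : Set (OnePoint E) := (↑) '' Metric.closedBall a 1

theorem isClosed_cb (a : E) : IsClosed (cb a) := by
  have : ProperSpace E := FiniteDimensional.proper ℝ E
  exact ((isCompact_closedBall a 1).image OnePoint.continuous_coe).isClosed

theorem kap_of_not_mem {a : E} {x : OnePoint E} (h : x ∉ cb a) : kap a x = ∞ := by
  induction x using OnePoint.rec with
  | infty => rfl
  | coe v =>
    apply kap_of_le
    by_contra hn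
    exact h ⟨v, by rw [Metric.mem_closedBall, dist_eq_norm]; exact (not_le.1 hn).le, rfl⟩

theorem disjoint_cb {a b : E} (h : 2 < ‖a - b‖) {x : OnePoint E} (ha : x ∈ cb a) : x ∉ cb b := by
  rintro ⟨w, hw, hwx⟩
  obtain ⟨v, hv, rfl⟩ := ha
  obtain rfl := OnePoint.coe_injective hwx
  rw [Metric.mem_closedBall, dist_eq_norm] at hv hw
  have : ‖a - b‖ ≤ ‖w - a‖ + ‖w - b‖ := by
    calc ‖a - b‖ = ‖(w - b) - (w - a)‖ := by rw [sub_sub_sub_cancel_left]
      _ ≤ ‖w - b‖ + ‖w - a‖ := norm_sub_le _ _
      _ = _ := add_comm _ _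
  linarith

end Vale.Agent.P263.T0.Ball
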