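import Vale.Agent.P263.T0.Small2

/-!
# P263, statement layer: Mayer-Vietoris for cochains mod 2, two acyclic open sets

`X = U ∪ V`, `U` and `V` open and acyclic: the reduced cohomology of `X` in degree `n + 1` is the
reduced cohomology of `U ∩ V` in degree `n`.
-/

namespace Vale.Agent.P263.T0.Small

open Finsupp Tuple Topology

variable {X : Type*} [TopologicalSpace X]

/-- cochains -/
abbrev Co (X : Type*) [TopologicalSpace X] (n : ℕ) : Type _ := C(Dl n, X) → ZMod 2

theorem cob_add {n : ℕ} (a b : Co X n) : cob n (a + b) = cob n a + cob n b := by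
  funext σ
  simp only [cob, Pi.add_apply, Finset.sum_add_distrib]

theorem cob_zero {n : ℕ} : cob n (0 : Co X n) = 0 := by
  funext σ
  simp [cob]

theorem co_add_self {n : ℕ} (a : Co X n) : a + a = 0 := by
  funext σ
  exact CharTwo.add_self_eq_zero _

theorem co_eq_of_add {n : ℕ} {a b : Co X n} (h : a + b = 0) : a = b := by
  rw [← add_zero a, ← co_add_self b, ← add_assoc, h, zero_add]

theorem fc_comp_fc {n : ℕ} (i : Fin (n + 3)) (j : Fin (n + 2)) :
    (fc (n + 1) i).comp (fc n j) =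
      (fc (n + 1) (i.succAbove j)).comp (fc n (j.predAbove i)) := by
  rw [fc, fc, fc, fc, aff_comp, aff_comp]
  congr 1
  funext l
  rw [comb_vx, comb_vx, Fin.succAbove_succAbove_succAbove_predAbove]

theorem cob_cob {n : ℕ} (c : Co X n) : cob (n + 1) (cob n c) = 0 := by
  funext σ
  show ∑ i, ∑ j, c ((σ.comp (fc (n + 1) i)).comp (fc n j)) = 0
  rw [← Finset.sum_product']
  refine Finset.sum_involution
    (fun p _ => (p.1.succAbove p.2, p.2.predAbove p.1)) ?_ ?_ ?_ ?_
  · rintro ⟨i, j⟩ -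
    show c ((σ.comp (fc (n + 1) i)).comp (fc n j)) +
      c ((σ.comp (fc (n + 1) (i.succAbove j))).comp (fc n (j.predAbove i))) = 0
    rw [ContinuousMap.comp_assoc, ContinuousMap.comp_assoc, ← fc_comp_fc]
    exact CharTwo.add_self_eq_zero _
  · rintro ⟨i, j⟩ - - h
    exact absurd (congrArg Prod.fst h) (Fin.succAbove_ne i j)
  · rintro ⟨i, j⟩ -
    simp
  · rintro ⟨i, j⟩ -
    simp [Fin.succAbove_succAbove_predAbove, Fin.predAbove_predAbove_succAbove]

/-- reduced coboundaries: in degree `0` the constants -/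
def RC : {n : ℕ} → Co X n → Prop
  | 0, c => ∃ a, c = fun _ => a
  | n + 1, c => ∃ b : Co X n, c = cob n b

theorem RC.add {n : ℕ} {a b : Co X n} (ha : RC a) (hb : RC b) : RC (a + b) := by
  cases n with
  | zero =>
    obtain ⟨x, rfl⟩ := ha
    obtain ⟨y, rfl⟩ := hb
    exact ⟨x + y, rfl⟩
  | succ n =>
    obtain ⟨x, rfl⟩ := ha
    obtain ⟨y, rfl⟩ := hb
    exact ⟨x + y, (cob_add x y).symm⟩

theorem rc_zero {n : ℕ} : RC (0 : Co X n) := by
  cases n with
  | zero => exact ⟨0, rfl⟩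
  | succ n => exact ⟨0, cob_zero.symm⟩

/-- the reduced cohomology vanishes in degree `n` -/
def RZ (X : Type*) [TopologicalSpace X] (n : ℕ) : Prop := ∀ c : Co X n, cob n c = 0 → RC c

/-- the reduced cohomology in degree `n` has two elements -/
def RF (X : Type*) [TopologicalSpace X] (n : ℕ) : Prop :=
  (∃ c : Co X n, cob n c = 0 ∧ ¬ RC c) ∧
    ∀ c c' : Co X n, cob n c = 0 → cob n c' = 0 → ¬ RC c → ¬ RC c' → RC (c + c')

/-! ### Pull back -/

variable {Y Z : Type*} [TopologicalSpace Y] [TopologicalSpace Z]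

/-- pull back of cochains -/
def pb (f : C(X, Y)) {n : ℕ} (c : Co Y n) : Co X n := fun σ => c (f.comp σ)

theorem pb_add (f : C(X, Y)) {n : ℕ} (a b : Co Y n) : pb f (a + b) = pb f a + pb f b := rfl

theorem pb_zero (f : C(X, Y)) {n : ℕ} : pb f (0 : Co Y n) = 0 := rfl

theorem cob_pb (f : C(X, Y)) {n : ℕ} (c : Co Y n) : cob n (pb f c) = pb f (cob n c) := rfl

theorem RC.pb (f : C(X, Y)) {n : ℕ} {c : Co Y n} (h : RC c) : RC (Small.pb f c) := by
  cases n with
  | zero =>
    obtain ⟨x, rfl⟩ := h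
    exact ⟨x, rfl⟩
  | succ n =>
    obtain ⟨x, rfl⟩ := h
    exact ⟨Small.pb f x, rfl⟩

/-! ### Two open sets -/

/-- the inclusion of a subset -/
def inc (A : Set X) : C(A, X) := ⟨Subtype.val, continuous_subtype_val⟩

/-- the inclusion of one subset in another -/
def incl {A B : Set X} (h : A ⊆ B) : C(A, B) := ⟨Set.inclusion h, continuous_inclusion h⟩

/-- corestriction -/
def cor (A : Set X) {n : ℕ} (σ : C(Dl n, X)) (h : ∀ x, σ x ∈ A) : C(Dl n, A) :=
  ⟨fun x => ⟨σ x, h x⟩, by fun_prop⟩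

/-- extension by zero -/
noncomputable def ext0 {A B : Set X} (_ : A ⊆ B) {n : ℕ} (c : Co A n) : Co B n := by
  classical
  exact fun σ => if h : ∀ x, (σ x : X) ∈ A then c ⟨fun x => ⟨σ x, h x⟩, by fun_prop⟩ else 0

theorem pb_ext0 {A B : Set X} (h : A ⊆ B) {n : ℕ} (c : Co A n) : pb (incl h) (ext0 h c) = c := by
  funext σ
  have h1 : ∀ x, (((incl h).comp σ) x : X) ∈ A := fun x => (σ x).2
  rw [pb, ext0, dif_pos h1]
  rfl

variable {U V : Set X}

/-- glueing of cochains on two subsets -/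
noncomputable def glue {n : ℕ} (a : Co U n) (b : Co V n) : Co X n := by
  classical
  exact fun σ => if h : ∀ x, σ x ∈ U then a (cor U σ h) else
    if h : ∀ x, σ x ∈ V then b (cor V σ h) else 0

theorem glue_left {n : ℕ} (a : Co U n) (b : Co V n) : pb (inc U) (glue a b) = a := by
  funext σ
  have h1 : ∀ x, ((inc U).comp σ) x ∈ U := fun x => (σ x).2
  rw [pb, glue, dif_pos h1]
  rfl

theorem glue_right {n : ℕ} (a : Co U n) (b : Co V n)
    (hab : pb (incl (Set.inter_subset_left : U ∩ V ⊆ U)) a =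
      pb (incl (Set.inter_subset_right : U ∩ V ⊆ V)) b) : pb (inc V) (glue a b) = b := by
  funext σ
  have h1 : ∀ x, ((inc V).comp σ) x ∈ V := fun x => (σ x).2
  rw [pb, glue]
  split_ifs with h
  · have := congrFun hab ⟨fun x => ⟨σ x, h x, h1 x⟩, by fun_prop⟩
    exact this
  · rfl

/-- vanishing on `U` and on `V` -/
theorem small_of {n : ℕ} {c : Co X n} (h1 : pb (inc U) c = 0) (h2 : pb (inc V) c = 0) :
    ∀ σ ∈ Sml (fun i : Bool => if i then U else V) n, c σ = 0 := by
  rintro σ ⟨i, hi⟩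
  cases i with
  | true => exact congrFun h1 (cor U σ hi)
  | false => exact congrFun h2 (cor V σ hi)

theorem of_small {n : ℕ} {c : Co X n}
    (h : ∀ σ ∈ Sml (fun i : Bool => if i then U else V) n, c σ = 0) :
    pb (inc U) c = 0 ∧ pb (inc V) c = 0 := by
  constructor
  · funext σ
    exact h _ ⟨true, fun x => (σ x).2⟩
  · funext σ
    exact h _ ⟨false, fun x => (σ x).2⟩

theorem mv_small (hU : IsOpen U) (hV : IsOpen V) (hUV : ∀ x, x ∈ U ∨ x ∈ V) {n : ℕ}
    {c : Co X (n + 1)} (hc : cob (n + 1) c = 0) (h1 : pb (inc U) c = 0) (h2 : pb (inc V) c = 0) :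
    ∃ b : Co X n, pb (inc U) b = 0 ∧ pb (inc V) b = 0 ∧ c = cob n b := by
  obtain ⟨b, hb, hbc⟩ := small_cochain (U := fun i : Bool => if i then U else V)
    (fun i => by cases i <;> simp [hU, hV])
    (fun x => by
      rcases hUV x with h | h
      · exact ⟨true, by simpa using h⟩
      · exact ⟨false, by simpa using h⟩) c (small_of h1 h2) (fun τ => congrFun hc τ)
  obtain ⟨h3, h4⟩ := of_small hb
  exact ⟨b, h3, h4, funext fun τ => (hbc τ).symm⟩

/-- The relation between `c` on `X` and `e` on `U ∩ V` (the connecting homomorphism). -/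
def Conn {n : ℕ} (c : Co X (n + 1)) (e : Co (U ∩ V : Set X) n) : Prop :=
  ∃ (a : Co U n) (b : Co V n), pb (inc U) c = cob n a ∧ pb (inc V) c = cob n b ∧
    e = pb (incl Set.inter_subset_left) a + pb (incl Set.inter_subset_right) b

theorem Conn.add {n : ℕ} {c c' : Co X (n + 1)} {e e' : Co (U ∩ V : Set X) n} (h : Conn c e)
    (h' : Conn c' e') : Conn (c + c') (e + e') := by
  obtain ⟨a, b, h1, h2, rfl⟩ := h
  obtain ⟨a', b', h1', h2', rfl⟩ := h'
  refine ⟨a + a', b + b', ?_, ?_, ?_⟩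
  · rw [pb_add, h1, h1', cob_add]
  · rw [pb_add, h2, h2', cob_add]
  · rw [pb_add, pb_add]
    abel

theorem Conn.cocycle {n : ℕ} {c : Co X (n + 1)} {e : Co (U ∩ V : Set X) n} (h : Conn c e) :
    cob n e = 0 := by
  obtain ⟨a, b, h1, h2, rfl⟩ := h
  rw [cob_add, cob_pb, cob_pb, ← h1, ← h2]
  exact co_add_self _

theorem conn_exists (hU : ∀ n, RZ U n) (hV : ∀ n, RZ V n) {n : ℕ} {c : Co X (n + 1)}
    (hc : cob (n + 1) c = 0) : ∃ e : Co (U ∩ V : Set X) n, Conn c e := by
  obtain ⟨a, ha⟩ := hU (n + 1) (pb (inc U) c) (by rw [cob_pb, hc, pb_zero])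
  obtain ⟨b, hb⟩ := hV (n + 1) (pb (inc V) c) (by rw [cob_pb, hc, pb_zero])
  exact ⟨_, a, b, ha, hb, rfl⟩

theorem conn_rc (hU : IsOpen U) (hV : IsOpen V) (hUV : ∀ x, x ∈ U ∨ x ∈ V) {n : ℕ}
    {c : Co X (n + 1)} (hc : cob (n + 1) c = 0) {e : Co (U ∩ V : Set X) n} (h : Conn c e)
    (he : RC e) : RC c := by
  obtain ⟨a, b, h1, h2, rfl⟩ := h
  -- change `a` such that the cochains agree
  obtain ⟨a', ha', hab⟩ : ∃ a' : Co U n, cob n a' = cob n a ∧
      pb (incl (Set.inter_subset_left : U ∩ V ⊆ U)) a' =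
        pb (incl (Set.inter_subset_right : U ∩ V ⊆ V)) b := by
    cases n with
    | zero =>
      obtain ⟨k, hk⟩ := he
      refine ⟨a + fun _ => k, ?_, ?_⟩
      · rw [cob_add]
        have : cob 0 (fun _ => k : Co U 0) = 0 := by
          funext σ
          show (∑ _i : Fin 2, k) = 0
          rw [Fin.sum_univ_two]
          exact CharTwo.add_self_eq_zero k
        rw [this, add_zero]
      · apply co_eq_of_add
        rw [pb_add, add_right_comm, hk]
        exact co_add_self _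
    | succ m =>
      obtain ⟨g, hg⟩ := he
      refine ⟨a + cob m (ext0 Set.inter_subset_left g), ?_, ?_⟩
      · rw [cob_add, cob_cob, add_zero]
      · apply co_eq_of_add
        rw [pb_add, add_right_comm, hg, ← cob_pb, pb_ext0]
        exact co_add_self _
  let h := glue a' b
  have hh1 : pb (inc U) h = a' := glue_left a' b
  have hh2 : pb (inc V) h = b := glue_right a' b hab
  obtain ⟨b', -, -, hb'⟩ := mv_small hU hV hUV (c := c + cob n h)
    (by rw [cob_add, hc, cob_cob, add_zero])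
    (by rw [pb_add, h1, ← cob_pb, hh1, ha']; exact co_add_self _)
    (by rw [pb_add, h2, ← cob_pb, hh2]; exact co_add_self _)
  refine ⟨h + b', ?_⟩
  rw [cob_add, ← hb', add_comm c, ← add_assoc, co_add_self, zero_add]

theorem rc_conn (hU : ∀ n, RZ U n) (hV : ∀ n, RZ V n) {n : ℕ} {c : Co X (n + 1)}
    {e : Co (U ∩ V : Set X) n} (h : Conn c e) (hc : RC c) : RC e := by
  obtain ⟨a, b, h1, h2, rfl⟩ := h
  obtain ⟨g, rfl⟩ := hc
  have e1 : RC (a + pb (inc U) g) := hU n _ (by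
    rw [cob_add, ← h1, cob_pb]; exact co_add_self _)
  have e2 : RC (b + pb (inc V) g) := hV n _ (by
    rw [cob_add, ← h2, cob_pb]; exact co_add_self _)
  have e3 := (e1.pb (incl (Set.inter_subset_left : U ∩ V ⊆ U))).add
    (e2.pb (incl (Set.inter_subset_right : U ∩ V ⊆ V)))
  rw [pb_add, pb_add] at e3
  have e4 : pb (incl (Set.inter_subset_left : U ∩ V ⊆ U)) (pb (inc U) g) =
      pb (incl (Set.inter_subset_right : U ∩ V ⊆ V)) (pb (inc V) g) := rfl
  rw [e4] at e3
  have e5 : pb (incl (Set.inter_subset_left : U ∩ V ⊆ U)) a +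
      pb (incl (Set.inter_subset_right : U ∩ V ⊆ V)) (pb (inc V) g) +
      (pb (incl (Set.inter_subset_right : U ∩ V ⊆ V)) b +
        pb (incl (Set.inter_subset_right : U ∩ V ⊆ V)) (pb (inc V) g)) =
      pb (incl (Set.inter_subset_left : U ∩ V ⊆ U)) a +
        pb (incl (Set.inter_subset_right : U ∩ V ⊆ V)) b := by
    rw [add_add_add_comm, co_add_self, add_zero]
  rwa [e5] at e3

theorem conn_onto (hU : IsOpen U) (hV : IsOpen V) (hUV : ∀ x, x ∈ U ∨ x ∈ V) {n : ℕ}
    {e : Co (U ∩ V : Set X) n} (he : cob n e = 0) :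
    ∃ c : Co X (n + 1), cob (n + 1) c = 0 ∧ Conn c e := by
  let a : Co U n := ext0 Set.inter_subset_left e
  have ha : pb (incl (Set.inter_subset_left : U ∩ V ⊆ U)) a = e := pb_ext0 _ _
  let g : Co X (n + 1) := glue (cob n a) (0 : Co V (n + 1))
  have hg1 : pb (inc U) g = cob n a := glue_left _ _
  have hg2 : pb (inc V) g = 0 := glue_right _ _ (by rw [← cob_pb, ha, he, pb_zero])
  obtain ⟨w, hw1, hw2, hw⟩ := mv_small hU hV hUV (c := cob (n + 1) g) (cob_cob g)
    (by rw [← cob_pb, hg1, cob_cob]) (by rw [← cob_pb, hg2, cob_zero])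
  refine ⟨g + w, ?_, a, 0, ?_, ?_, ?_⟩
  · rw [cob_add, ← hw]
    exact co_add_self _
  · rw [pb_add, hg1, hw1, add_zero]
  · rw [pb_add, hg2, hw2, cob_zero, add_zero]
  · rw [ha, pb_zero, add_zero]

/-- **Mayer-Vietoris**, vanishing. -/
theorem mv_RZ (hU : IsOpen U) (hV : IsOpen V) (hUV : ∀ x, x ∈ U ∨ x ∈ V) (aU : ∀ n, RZ U n)
    (aV : ∀ n, RZ V n) {n : ℕ} (h : RZ (U ∩ V : Set X) n) : RZ X (n + 1) := by
  intro c hc
  obtain ⟨e, he⟩ := conn_exists aU aV hc
  exact conn_rc hU hV hUV hc he (h e he.cocycle)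

/-- **Mayer-Vietoris**, the degree with two classes. -/
theorem mv_RF (hU : IsOpen U) (hV : IsOpen V) (hUV : ∀ x, x ∈ U ∨ x ∈ V) (aU : ∀ n, RZ U n)
    (aV : ∀ n, RZ V n) {n : ℕ} (h : RF (U ∩ V : Set X) n) : RF X (n + 1) := by
  obtain ⟨⟨e, he, hne⟩, huniq⟩ := h
  constructor
  · obtain ⟨c, hc, hce⟩ := conn_onto hU hV hUV he
    exact ⟨c, hc, fun hrc => hne (rc_conn aU aV hce hrc)⟩
  · intro c c' hc hc' h1 h2
    obtain ⟨e, he⟩ := conn_exists aU aV hc
    obtain ⟨e', he'⟩ := conn_exists aU aV hc'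
    refine conn_rc hU hV hUV (by rw [cob_add, hc, hc', add_zero]) (he.add he')
      (huniq e e' he.cocycle he'.cocycle (fun h => h1 (conn_rc hU hV hUV hc he h))
        (fun h => h2 (conn_rc hU hV hUV hc' he' h)))

/-- Degree `0`. -/
theorem mv_zero (hUV : ∀ x, x ∈ U ∨ x ∈ V) (aU : RZ U 0) (aV : RZ V 0)
    (hne : (U ∩ V : Set X).Nonempty) : RZ X 0 := by
  intro c hc
  obtain ⟨a, ha⟩ := aU (pb (inc U) c) (by rw [cob_pb, hc, pb_zero])
  obtain ⟨b, hb⟩ := aV (pb (inc V) c) (by rw [cob_pb, hc, pb_zero])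
  obtain ⟨x, hxU, hxV⟩ := hne
  have hab : a = b := by
    have h1 := congrFun ha (ContinuousMap.const _ ⟨x, hxU⟩)
    have h2 := congrFun hb (ContinuousMap.const _ ⟨x, hxV⟩)
    exact h1.symm.trans h2
  refine ⟨a, funext fun σ => ?_⟩
  have key : ∀ x : Dl 0, x = vx 0 0 := fun x => by
    have : Unique (Fin (0 + 1)) := inferInstanceAs (Unique (Fin 1))
    exact Subsingleton.elim _ _
  rcases hUV (σ (vx 0 0)) with h | h
  · have h1 : ∀ x, σ x ∈ U := fun x => by rw [key x]; exact h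
    exact congrFun ha (cor U σ h1)
  · have h1 : ∀ x, σ x ∈ V := fun x => by rw [key x]; exact h
    rw [hab]
    exact congrFun hb (cor V σ h1)

end Vale.Agent.P263.T0.Small
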