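import Vale.Agent.P263.T0.Tuple
import Mathlib.Analysis.Convex.StdSimplex
import Mathlib.Topology.ContinuousMap.Basic
import Mathlib.Topology.Algebra.Monoid
import Mathlib.Topology.MetricSpace.Bounded
import Mathlib.Analysis.SpecificLimits.Basic

/-!
# P263, statement layer: the small simplices theorem, mod 2

Singular simplices of `X` are continuous maps `Δⁿ → X`, `Δⁿ = stdSimplex ℝ (Fin (n + 1))`.
-/

namespace Vale.Agent.P263.T0.Small

open Finsupp Tuple Topology

/-- the standard simplex -/
abbrev Dl (n : ℕ) : Type := stdSimplex ℝ (Fin (n + 1))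

/-- The affine combination of the points `v` with the weights `t`. -/
noncomputable def comb {n k : ℕ} (v : Fin (k + 1) → Dl n) (t : Dl k) : Dl n :=
  ⟨fun j => ∑ i, t i * v i j, fun j => Finset.sum_nonneg fun i _ =>
    mul_nonneg (stdSimplex.zero_le t i) (stdSimplex.zero_le (v i) j), by
      rw [Finset.sum_comm]
      simp_rw [← Finset.mul_sum, stdSimplex.sum_eq_one, mul_one]
      exact stdSimplex.sum_eq_one t⟩

theorem comb_apply {n k : ℕ} (v : Fin (k + 1) → Dl n) (t : Dl k) (j : Fin (n + 1)) :
    comb v t j = ∑ i, t i * v i j := rfl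

theorem dl_ext {n : ℕ} {x y : Dl n} (h : ∀ j, x j = y j) : x = y :=
  stdSimplex.ext (funext h)

/-- associativity -/
theorem comb_comb {m n k : ℕ} (w : Fin (n + 1) → Dl m) (v : Fin (k + 1) → Dl n) (t : Dl k) :
    comb (fun i => comb w (v i)) t = comb w (comb v t) := by
  refine dl_ext fun j => ?_
  simp only [comb_apply, Finset.mul_sum, Finset.sum_mul]
  rw [Finset.sum_comm]
  refine Finset.sum_congr rfl fun i _ => Finset.sum_congr rfl fun l _ => ?_
  ring

/-- the vertices -/
noncomputable def vx (n : ℕ) (i : Fin (n + 1)) : Dl n := stdSimplex.vertex i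

theorem vx_apply (n : ℕ) (i j : Fin (n + 1)) : vx n i j = if j = i then 1 else 0 := by
  rw [vx, stdSimplex.vertex_coe, Pi.single_apply]

theorem comb_vx {n k : ℕ} (v : Fin (k + 1) → Dl n) (i : Fin (k + 1)) : comb v (vx k i) = v i := by
  refine dl_ext fun j => ?_
  rw [comb_apply]
  simp_rw [vx_apply]
  simp

theorem comb_vx_self {n : ℕ} (t : Dl n) : comb (vx n) t = t := by
  refine dl_ext fun j => ?_
  rw [comb_apply]
  simp_rw [vx_apply]
  simp

theorem continuous_comb {n k : ℕ} (v : Fin (k + 1) → Dl n) : Continuous (comb v) := by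
  refine Continuous.subtype_mk (continuous_pi fun j => ?_) _
  refine continuous_finsetSum _ fun i _ => Continuous.mul ?_ continuous_const
  exact (continuous_apply i).comp continuous_subtype_val

/-- the affine simplex with the vertices `v` -/
noncomputable def aff {n k : ℕ} (v : Fin (k + 1) → Dl n) : C(Dl k, Dl n) :=
  ⟨comb v, continuous_comb v⟩

@[simp] theorem aff_apply {n k : ℕ} (v : Fin (k + 1) → Dl n) (t : Dl k) : aff v t = comb v t := rfl

theorem aff_comp {m n k : ℕ} (w : Fin (n + 1) → Dl m) (v : Fin (k + 1) → Dl n) :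
    (aff w).comp (aff v) = aff (fun i => comb w (v i)) :=
  ContinuousMap.ext fun t => (comb_comb w v t).symm

theorem aff_vx (n : ℕ) : aff (vx n) = ContinuousMap.id (Dl n) :=
  ContinuousMap.ext fun t => comb_vx_self t

/-- the `i`-th face -/
noncomputable def fc (n : ℕ) (i : Fin (n + 2)) : C(Dl n, Dl (n + 1)) :=
  aff fun j => vx (n + 1) (i.succAbove j)

theorem fc_eq_map (n : ℕ) (i : Fin (n + 2)) (t : Dl n) :
    fc n i t = stdSimplex.map i.succAbove t := by
  refine dl_ext fun j => ?_
  show comb _ t j = _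
  rw [comb_apply, stdSimplex.map_coe, FunOnFinite.linearMap_apply_apply]
  simp_rw [vx_apply]
  rw [Finset.sum_filter]
  refine Finset.sum_congr rfl fun l _ => ?_
  simp [eq_comm]

/-- the barycenter of a tuple -/
noncomputable def br {n : ℕ} {k : ℕ} (v : Fin (k + 1) → Dl n) : Dl n :=
  comb v stdSimplex.barycenter

theorem comb_br {m n k : ℕ} (w : Fin (n + 1) → Dl m) (v : Fin (k + 1) → Dl n) :
    comb w (br v) = br (fun j => comb w (v j)) := (comb_comb w v _).symm

/-! ### Singular chains -/

variable {X Y : Type*} [TopologicalSpace X] [TopologicalSpace Y]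

/-- singular chains, mod 2 -/
abbrev Ch (X : Type*) [TopologicalSpace X] (n : ℕ) : Type _ := C(Dl n, X) →₀ ZMod 2

/-- the boundary -/
noncomputable def dd (n : ℕ) : Ch X (n + 1) →ₗ[ZMod 2] Ch X n :=
  linearCombination (ZMod 2) fun σ => ∑ i : Fin (n + 2), single (σ.comp (fc n i)) 1

@[simp] theorem dd_single (n : ℕ) (σ : C(Dl (n + 1), X)) :
    dd n (single σ 1) = ∑ i : Fin (n + 2), single (σ.comp (fc n i)) 1 := by
  simp [dd]

theorem ch_add_self {n : ℕ} (c : Ch X n) : c + c = 0 := by
  rw [← two_nsmul, ← Nat.cast_smul_eq_nsmul (ZMod 2)]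
  have : ((2 : ℕ) : ZMod 2) = 0 := rfl
  rw [this, zero_smul]

theorem ch_ext {n : ℕ} {M : Type*} [AddCommMonoid M] [Module (ZMod 2) M]
    {f g : Ch X n →ₗ[ZMod 2] M} (h : ∀ σ, f (single σ 1) = g (single σ 1)) : f = g :=
  Finsupp.lhom_ext' fun v => LinearMap.ext_ring (h v)

/-- The chain `σ_*(c)` of a simplex `σ` and an affine chain `c`. -/
noncomputable def act {n k : ℕ} (σ : C(Dl n, X)) : L (Dl n) k →ₗ[ZMod 2] Ch X k :=
  linearCombination (ZMod 2) fun v => single (σ.comp (aff v)) 1

@[simp] theorem act_sg {n k : ℕ} (σ : C(Dl n, X)) (v : Fin (k + 1) → Dl n) :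
    act σ (sg v) = single (σ.comp (aff v)) 1 := by
  simp [act]

theorem act_bd {n k : ℕ} (σ : C(Dl n, X)) (c : L (Dl n) (k + 1)) :
    dd k (act σ c) = act σ (bd k c) := by
  have : (dd k).comp (act (k := k + 1) σ) = (act σ).comp (bd k) := by
    refine Tuple.hom_ext fun v => ?_
    rw [LinearMap.comp_apply, act_sg, dd_single, LinearMap.comp_apply, bd_sg, map_sum]
    refine Finset.sum_congr rfl fun i _ => ?_
    rw [act_sg, ContinuousMap.comp_assoc, fc, aff_comp]
    simp_rw [comb_vx]
  exact LinearMap.congr_fun this c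

theorem act_pf {m n k : ℕ} (σ : C(Dl m, X)) (w : Fin (n + 1) → Dl m) (c : L (Dl n) k) :
    act σ (pf (comb w) c) = act (σ.comp (aff w)) c := by
  have : (act σ).comp (pf (k := k) (comb w)) = act (σ.comp (aff w)) := by
    refine Tuple.hom_ext fun v => ?_
    rw [LinearMap.comp_apply, pf_sg, act_sg, act_sg, ContinuousMap.comp_assoc, aff_comp]
  exact LinearMap.congr_fun this c

/-- the subdivision of singular chains -/
noncomputable def sd (n : ℕ) : Ch X n →ₗ[ZMod 2] Ch X n :=
  linearCombination (ZMod 2) fun σ => act σ (S br n (sg (vx n)))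

/-- the homotopy -/
noncomputable def td (n : ℕ) : Ch X n →ₗ[ZMod 2] Ch X (n + 1) :=
  linearCombination (ZMod 2) fun σ => act σ (T br n (sg (vx n)))

@[simp] theorem sd_single (n : ℕ) (σ : C(Dl n, X)) :
    sd n (single σ 1) = act σ (S br n (sg (vx n))) := by simp [sd]

@[simp] theorem td_single (n : ℕ) (σ : C(Dl n, X)) :
    td n (single σ 1) = act σ (T br n (sg (vx n))) := by simp [td]

theorem act_S {n k : ℕ} (σ : C(Dl n, X)) (c : L (Dl n) k) : act σ (S br k c) = sd k (act σ c) := by
  have : (act σ).comp (S (P := Dl n) br k) = (sd k).comp (act σ) := by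
    refine Tuple.hom_ext fun v => ?_
    rw [LinearMap.comp_apply, LinearMap.comp_apply, act_sg, sd_single, ← act_pf,
      pf_S (P := Dl k) (Q := Dl n) br br (comb v) (fun w => comb_br v w), pf_sg]
    simp_rw [comb_vx]
  exact LinearMap.congr_fun this c

theorem act_T {n k : ℕ} (σ : C(Dl n, X)) (c : L (Dl n) k) : act σ (T br k c) = td k (act σ c) := by
  have : (act σ).comp (T (P := Dl n) br k) = (td k).comp (act σ) := by
    refine Tuple.hom_ext fun v => ?_
    rw [LinearMap.comp_apply, LinearMap.comp_apply, act_sg, td_single, ← act_pf,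
      pf_T (P := Dl k) (Q := Dl n) br br (comb v) (fun w => comb_br v w), pf_sg]
    simp_rw [comb_vx]
  exact LinearMap.congr_fun this c

theorem act_vx (n : ℕ) (σ : C(Dl n, X)) : act σ (sg (vx n)) = single σ 1 := by
  rw [act_sg, aff_vx, ContinuousMap.comp_id]

/-- `sd` is a chain map. -/
theorem dd_sd (n : ℕ) (c : Ch X (n + 1)) : dd n (sd (n + 1) c) = sd n (dd n c) := by
  have : (dd n).comp (sd (X := X) (n + 1)) = (sd n).comp (dd n) := by
    refine ch_ext fun σ => ?_
    rw [LinearMap.comp_apply, sd_single, act_bd, bd_S, act_S, LinearMap.comp_apply, ← act_bd,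
      act_vx]
  exact LinearMap.congr_fun this c

theorem sd_zero (c : Ch X 0) : sd 0 c = c := by
  have : sd (X := X) 0 = LinearMap.id := by
    refine ch_ext fun σ => ?_
    rw [sd_single, S_zero, act_vx, LinearMap.id_apply]
  exact LinearMap.congr_fun this c

theorem td_zero (c : Ch X 0) : td 0 c = 0 := by
  have : td (X := X) 0 = 0 := by
    refine ch_ext fun σ => ?_
    rw [td_single, T_zero, map_zero, LinearMap.zero_apply]
  exact LinearMap.congr_fun this c

/-- The chain homotopy. -/
theorem dd_td (n : ℕ) (c : Ch X (n + 1)) :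
    dd (n + 1) (td (n + 1) c) + td n (dd n c) = c + sd (n + 1) c := by
  have : (dd (n + 1)).comp (td (X := X) (n + 1)) + (td n).comp (dd n) =
      LinearMap.id + sd (n + 1) := by
    refine ch_ext fun σ => ?_
    have h := congrArg (act σ) (bd_T (P := Dl (n + 1)) br n (sg (vx (n + 1))))
    rw [map_add, map_add, act_vx, act_T, ← act_bd, ← act_bd, act_vx] at h
    rw [LinearMap.add_apply, LinearMap.comp_apply, td_single, LinearMap.comp_apply, h,
      LinearMap.add_apply, LinearMap.id_apply, sd_single]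
  exact LinearMap.congr_fun this c

end Vale.Agent.P263.T0.Small
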