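import Vale.Agent.P263.T0.Small
import Mathlib.LinearAlgebra.Dual.Lemmas

/-!
# P263, statement layer: the small simplices theorem, mod 2 (diameter estimate, main theorem)
-/

namespace Vale.Agent.P263.T0.Small

open Finsupp Tuple Topology

/-- all distances of the points of the tuple are `≤ r` -/
def Near {n k : ℕ} (r : ℝ) (v : Fin (k + 1) → Dl n) : Prop := ∀ i j, dist (v i) (v j) ≤ r

/-- every ball which contains the points of `v` contains `p` -/
def Dom {n k : ℕ} (v : Fin (k + 1) → Dl n) (p : Dl n) : Prop :=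
  ∀ (b : Dl n) (r : ℝ), (∀ j, dist b (v j) ≤ r) → dist b p ≤ r

theorem dist_le {n : ℕ} {x y : Dl n} {r : ℝ} (hr : 0 ≤ r) (h : ∀ j, |x j - y j| ≤ r) :
    dist x y ≤ r := by
  rw [Subtype.dist_eq, dist_pi_le_iff hr]
  intro j
  rw [Real.dist_eq]
  exact h j

theorem abs_le_dist {n : ℕ} (x y : Dl n) (j : Fin (n + 1)) : |x j - y j| ≤ dist x y := by
  rw [Subtype.dist_eq, ← Real.dist_eq]
  exact dist_le_pi_dist (x : Fin (n + 1) → ℝ) y j

theorem dom_comb {n k : ℕ} (v : Fin (k + 1) → Dl n) (t : Dl k) : Dom v (comb v t) := by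
  intro b r h
  have hr : 0 ≤ r := dist_nonneg.trans (h 0)
  refine dist_le hr fun j => ?_
  have h1 : b j - comb v t j = ∑ i, t i * (b j - v i j) := by
    simp_rw [mul_sub, Finset.sum_sub_distrib]
    rw [← Finset.sum_mul, stdSimplex.sum_eq_one, one_mul, comb_apply]
  rw [h1]
  refine (Finset.abs_sum_le_sum_abs _ _).trans ?_
  calc ∑ i, |t i * (b j - v i j)| ≤ ∑ i, t i * r := by
        refine Finset.sum_le_sum fun i _ => ?_
        rw [abs_mul, abs_of_nonneg (stdSimplex.zero_le t i)]
        exact mul_le_mul_of_nonneg_left ((abs_le_dist b (v i) j).trans (h i))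
          (stdSimplex.zero_le t i)
    _ = r := by rw [← Finset.sum_mul, stdSimplex.sum_eq_one, one_mul]

theorem Dom.mono {n k l : ℕ} {v : Fin (k + 1) → Dl n} {w : Fin (l + 1) → Dl n} {p : Dl n}
    (h : Dom w p) (hw : ∀ i, ∃ j, w i = v j) : Dom v p := fun b r hb =>
  h b r fun j => by
    obtain ⟨i, hi⟩ := hw j
    rw [hi]
    exact hb i

theorem br_apply {n k : ℕ} (v : Fin (k + 1) → Dl n) (j : Fin (n + 1)) :
    br v j = 1 / ((k : ℝ) + 1) * ∑ i, v i j := by
  rw [br, comb_apply, Finset.mul_sum]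
  refine Finset.sum_congr rfl fun i _ => ?_
  congr 1
  show (stdSimplex.barycenter : stdSimplex ℝ (Fin (k + 1))).val i = _
  rw [stdSimplex.barycenter_apply]
  simp

theorem dist_br {n k : ℕ} {v : Fin (k + 1) → Dl n} {r : ℝ} (h : Near r v) (l : Fin (k + 1)) :
    dist (br v) (v l) ≤ k / (k + 1) * r := by
  have hr : 0 ≤ r := dist_nonneg.trans (h 0 0)
  refine dist_le (by positivity) fun j => ?_
  have h1 : br v j - v l j = ∑ i, (1 / ((k : ℝ) + 1)) * (v i j - v l j) := by
    rw [← Finset.mul_sum, Finset.sum_sub_distrib, br_apply]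
    simp only [Fintype.card_fin, Finset.sum_const, Finset.card_univ, nsmul_eq_mul, Nat.cast_add,
      Nat.cast_one]
    field_simp
  rw [h1]
  refine (Finset.abs_sum_le_sum_abs _ _).trans ?_
  calc ∑ i, |(1 / ((k : ℝ) + 1)) * (v i j - v l j)|
      ≤ ∑ i, (1 / ((k : ℝ) + 1)) * (if i = l then 0 else r) := by
        refine Finset.sum_le_sum fun i _ => ?_
        rw [abs_mul, abs_of_nonneg (by positivity : 0 ≤ 1 / ((k : ℝ) + 1))]
        refine mul_le_mul_of_nonneg_left ?_ (by positivity)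
        split_ifs with hi
        · rw [hi, sub_self, abs_zero]
        · exact (abs_le_dist _ _ j).trans (h i l)
    _ = k / (k + 1) * r := by
        rw [← Finset.mul_sum]
        have h2 : ∑ i : Fin (k + 1), (if i = l then (0 : ℝ) else r) = k * r := by
          have h3 : ∀ i : Fin (k + 1), (if i = l then (0 : ℝ) else r) =
              r - (if i = l then r else 0) := fun i => by split_ifs <;> simp
          simp_rw [h3]
          rw [Finset.sum_sub_distrib]
          simp
          ring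
        rw [h2]
        ring

/-- the tuples in the subdivision of `v` -/
def Good {n k : ℕ} (r : ℝ) (v : Fin (k + 1) → Dl n) : Set (Fin (k + 1) → Dl n) :=
  {w | (∀ i, Dom v (w i)) ∧ Near (k / (k + 1) * r) w}

theorem S_good {n : ℕ} (k : ℕ) {r : ℝ} (hr : 0 ≤ r) (v : Fin (k + 1) → Dl n) (h : Near r v) :
    S (P := Dl n) br k (sg v) ∈ supported (ZMod 2) (ZMod 2) (Good r v) := by
  induction k with
  | zero =>
    rw [S_zero]
    refine single_mem_supported _ _ ⟨fun i b r hb => hb i, fun i j => ?_⟩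
    rw [Fin.eq_zero i, Fin.eq_zero j, dist_self]
    positivity
  | succ k ih =>
    rw [S_succ_sg, bd_sg, map_sum, map_sum]
    refine Submodule.sum_mem _ fun i _ => ?_
    have h1 : Near r (fun j => v (i.succAbove j)) := fun a b => h _ _
    refine lin_supported (cone (br v)) (s := Good r (fun j => v (i.succAbove j)))
      (fun w hw => ?_) (ih _ h1)
    rw [cone_sg]
    obtain ⟨hw1, hw2⟩ := hw
    have hD : ∀ l, Dom v (w l) := fun l => (hw1 l).mono fun a => ⟨_, rfl⟩
    have hB : ∀ l, dist (br v) (w l) ≤ ((k + 1 : ℕ) : ℝ) / (((k + 1 : ℕ) : ℝ) + 1) * r := fun l =>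
      hD l _ _ fun j => dist_br h j
    refine single_mem_supported _ _ ⟨fun a => ?_, fun a b => ?_⟩
    · refine Fin.cases ?_ (fun a => ?_) a
      · exact dom_comb v _
      · exact hD a
    · refine Fin.cases ?_ (fun a => ?_) a
      · refine Fin.cases ?_ (fun b => ?_) b
        · rw [dist_self]; positivity
        · exact hB b
      · refine Fin.cases ?_ (fun b => ?_) b
        · rw [dist_comm]; exact hB a
        · refine (hw2 a b).trans (mul_le_mul_of_nonneg_right ?_ hr)
          push_cast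
          rw [div_le_div_iff₀ (by positivity) (by positivity)]
          nlinarith

theorem S_near {n k : ℕ} {r : ℝ} (hr : 0 ≤ r) {c : L (Dl n) k}
    (hc : c ∈ supported (ZMod 2) (ZMod 2) {v | Near r v}) :
    S (P := Dl n) br k c ∈ supported (ZMod 2) (ZMod 2) {v | Near (k / (k + 1) * r) v} :=
  lin_supported (S br k) (fun v hv =>
    supported_mono (fun _ hw => hw.2) (S_good k hr v hv)) hc

theorem S_iter_near {n k : ℕ} {r : ℝ} (hr : 0 ≤ r) {c : L (Dl n) k}
    (hc : c ∈ supported (ZMod 2) (ZMod 2) {v | Near r v}) (m : ℕ) :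
    (S (P := Dl n) br k)^[m] c ∈
      supported (ZMod 2) (ZMod 2) {v | Near (((k : ℝ) / (k + 1)) ^ m * r) v} := by
  induction m with
  | zero => simpa using hc
  | succ m ih =>
    rw [Function.iterate_succ_apply']
    have := S_near (by positivity) ih
    rwa [← mul_assoc, ← pow_succ'] at this

/-! ### Small simplices -/

variable {X : Type*} [TopologicalSpace X] {ι : Type*}

/-- the simplices whose image is contained in one of the sets `U i` -/
def Sml (U : ι → Set X) (n : ℕ) : Set C(Dl n, X) := {σ | ∃ i, ∀ x, σ x ∈ U i}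

/-- the small chains -/
noncomputable def Sub (U : ι → Set X) (n : ℕ) : Submodule (ZMod 2) (Ch X n) :=
  supported (ZMod 2) (ZMod 2) (Sml U n)

theorem sml_comp {U : ι → Set X} {n k : ℕ} {σ : C(Dl n, X)} (h : σ ∈ Sml U n)
    (f : C(Dl k, Dl n)) : σ.comp f ∈ Sml U k := by
  obtain ⟨i, hi⟩ := h
  exact ⟨i, fun x => hi (f x)⟩

theorem act_small {U : ι → Set X} {n k : ℕ} {σ : C(Dl n, X)} (h : σ ∈ Sml U n)
    (c : L (Dl n) k) : act σ c ∈ Sub U k := by
  refine lin_supported (act σ) (s := Set.univ) (fun v _ => ?_) (by simp)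
  rw [act_sg]
  exact single_mem_supported _ _ (sml_comp h _)

theorem dd_small {U : ι → Set X} {n : ℕ} {c : Ch X (n + 1)} (h : c ∈ Sub U (n + 1)) :
    dd n c ∈ Sub U n := by
  refine lin_supported (dd n) (fun σ hσ => ?_) h
  rw [dd_single]
  exact Submodule.sum_mem _ fun i _ => single_mem_supported _ _ (sml_comp hσ _)

theorem sd_small {U : ι → Set X} {n : ℕ} {c : Ch X n} (h : c ∈ Sub U n) : sd n c ∈ Sub U n := by
  refine lin_supported (sd n) (fun σ hσ => ?_) h
  rw [sd_single]
  exact act_small hσ _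

theorem td_small {U : ι → Set X} {n : ℕ} {c : Ch X n} (h : c ∈ Sub U n) :
    td n c ∈ Sub U (n + 1) := by
  refine lin_supported (td n) (fun σ hσ => ?_) h
  rw [td_single]
  exact act_small hσ _

theorem sd_iter_small {U : ι → Set X} {n : ℕ} {c : Ch X n} (h : c ∈ Sub U n) (m : ℕ) :
    (sd n)^[m] c ∈ Sub U n := by
  induction m with
  | zero => exact h
  | succ m ih => rw [Function.iterate_succ_apply']; exact sd_small ih

theorem act_S_iter {n k : ℕ} (σ : C(Dl n, X)) (c : L (Dl n) k) (m : ℕ) :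
    act σ ((S (P := Dl n) br k)^[m] c) = (sd k)^[m] (act σ c) := by
  induction m with
  | zero => rfl
  | succ m ih => rw [Function.iterate_succ_apply', Function.iterate_succ_apply', act_S, ih]

/-- One simplex becomes small. -/
theorem exists_small_single {U : ι → Set X} (hU : ∀ i, IsOpen (U i)) (hc : ∀ x, ∃ i, x ∈ U i)
    {n : ℕ} (σ : C(Dl n, X)) : ∃ m, (sd n)^[m] (single σ 1) ∈ Sub U n := by
  obtain ⟨δ, hδ, hball⟩ := lebesgue_number_lemma_of_metric (s := (Set.univ : Set (Dl n)))
    isCompact_univ (c := fun i => σ ⁻¹' U i) (fun i => (hU i).preimage σ.continuous)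
    (fun x _ => Set.mem_iUnion.2 (hc (σ x)))
  have hq : (n : ℝ) / (n + 1) < 1 := by
    rw [div_lt_one (by positivity)]
    linarith
  obtain ⟨m, hm⟩ := exists_pow_lt_of_lt_one hδ hq
  refine ⟨m, ?_⟩
  have h1 : sg (vx n) ∈ supported (ZMod 2) (ZMod 2) {v : Fin (n + 1) → Dl n | Near 1 v} := by
    refine single_mem_supported _ _ fun i j => ?_
    refine dist_le zero_le_one fun l => ?_
    rw [abs_le]
    have a := stdSimplex.zero_le (vx n i) l
    have b := stdSimplex.zero_le (vx n j) l
    have a' := stdSimplex.le_one (vx n i) l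
    have b' := stdSimplex.le_one (vx n j) l
    constructor <;> linarith
  have h2 := S_iter_near zero_le_one h1 m
  rw [mul_one] at h2
  rw [← act_vx, ← act_S_iter]
  refine lin_supported (act σ) (fun v hv => ?_) h2
  rw [act_sg]
  refine single_mem_supported _ _ ?_
  obtain ⟨i, hi⟩ := hball (v 0) (Set.mem_univ _)
  refine ⟨i, fun t => ?_⟩
  have h3 : aff v t ∈ Metric.ball (v 0) δ := by
    rw [Metric.mem_ball, dist_comm]
    exact (dom_comb v t (v 0) _ fun j => hv 0 j).trans_lt hm
  exact hi h3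

/-- **Small simplices**: every chain becomes small. -/
theorem exists_small {U : ι → Set X} (hU : ∀ i, IsOpen (U i)) (hc : ∀ x, ∃ i, x ∈ U i)
    {n : ℕ} (c : Ch X n) : ∃ m, (sd n)^[m] c ∈ Sub U n := by
  have hlin : ∀ (m : ℕ), (sd (X := X) n)^[m] = ⇑((sd (X := X) n) ^ m) := fun m => by
    funext c
    rw [Module.End.pow_apply]
  induction c using Finsupp.induction_linear with
  | zero => exact ⟨0, Submodule.zero_mem _⟩
  | add c c' h h' =>
    obtain ⟨m, hm⟩ := h
    obtain ⟨m', hm'⟩ := h'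
    refine ⟨m' + m, ?_⟩
    rw [hlin, map_add, ← hlin]
    refine Submodule.add_mem _ ?_ ?_
    · rw [Function.iterate_add_apply]; exact sd_iter_small hm _
    · rw [add_comm m' m, Function.iterate_add_apply]; exact sd_iter_small hm' _
  | single σ a =>
    obtain ⟨m, hm⟩ := exists_small_single hU hc σ
    refine ⟨m, ?_⟩
    have : (single σ a : Ch X n) = a • single σ 1 := by rw [smul_single, smul_eq_mul, mul_one]
    rw [this, hlin, map_smul, ← hlin]
    exact Submodule.smul_mem _ _ hm

/-- the homotopy from the identity to the `m`-fold subdivision -/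
noncomputable def tdm (n m : ℕ) (c : Ch X n) : Ch X (n + 1) :=
  ∑ j ∈ Finset.range m, td n ((sd n)^[j] c)

theorem tdm_small {U : ι → Set X} {n : ℕ} {c : Ch X n} (h : c ∈ Sub U n) (m : ℕ) :
    tdm n m c ∈ Sub U (n + 1) :=
  Submodule.sum_mem _ fun j _ => td_small (sd_iter_small h j)

theorem dd_sd_iter (n : ℕ) (c : Ch X (n + 1)) (m : ℕ) :
    dd n ((sd (n + 1))^[m] c) = (sd n)^[m] (dd n c) := by
  induction m with
  | zero => rfl
  | succ m ih => rw [Function.iterate_succ_apply', Function.iterate_succ_apply', dd_sd, ih]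

theorem dd_tdm (n m : ℕ) (c : Ch X (n + 1)) :
    dd (n + 1) (tdm (n + 1) m c) + tdm n m (dd n c) = c + (sd (n + 1))^[m] c := by
  induction m with
  | zero =>
    simp only [tdm, Finset.range_zero, Finset.sum_empty, map_zero, add_zero,
      Function.iterate_zero, id_eq]
    exact (ch_add_self c).symm
  | succ m ih =>
    have h1 := dd_td n ((sd (n + 1))^[m] c)
    rw [dd_sd_iter] at h1
    have h2 : dd (n + 1) (tdm (n + 1) (m + 1) c) + tdm n (m + 1) (dd n c) =
        (dd (n + 1) (tdm (n + 1) m c) + tdm n m (dd n c)) +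
          (dd (n + 1) (td (n + 1) ((sd (n + 1))^[m] c)) + td n ((sd n)^[m] (dd n c))) := by
      rw [tdm, tdm, Finset.sum_range_succ, Finset.sum_range_succ, map_add, tdm, tdm]
      abel
    rw [h2, ih, h1, Function.iterate_succ_apply', add_assoc, ← add_assoc ((sd (n + 1))^[m] c),
      ch_add_self, zero_add]

/-- **Relative cycles modulo small chains are relative boundaries.** -/
theorem exists_of_dd_small {U : ι → Set X} (hU : ∀ i, IsOpen (U i)) (hc : ∀ x, ∃ i, x ∈ U i)
    {n : ℕ} (c : Ch X (n + 1)) (h : dd n c ∈ Sub U n) :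
    ∃ (e : Ch X (n + 1)) (b : Ch X (n + 2)), e ∈ Sub U (n + 1) ∧ c = e + dd (n + 1) b := by
  obtain ⟨m, hm⟩ := exists_small hU hc c
  refine ⟨tdm n m (dd n c) + (sd (n + 1))^[m] c, tdm (n + 1) m c,
    Submodule.add_mem _ (tdm_small h m) hm, ?_⟩
  have h1 := dd_tdm n m c
  have h2 : c = (c + (sd (n + 1))^[m] c) + (sd (n + 1))^[m] c := by
    rw [add_assoc, ch_add_self, add_zero]
  rw [h2, ← h1]
  have h3 : c + (sd (n + 1))^[m] c + (sd (n + 1))^[m] c = c := by
    rw [add_assoc, ch_add_self, add_zero]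
  rw [h1, h3]
  have h4 : tdm n m (dd n c) + (sd (n + 1))^[m] c + dd (n + 1) (tdm (n + 1) m c) =
      (dd (n + 1) (tdm (n + 1) m c) + tdm n m (dd n c)) + (sd (n + 1))^[m] c := by abel
  rw [h4, h1, h3]

theorem mem_Sub_zero {U : ι → Set X} (hc : ∀ x, ∃ i, x ∈ U i) (σ : C(Dl 0, X)) :
    σ ∈ Sml U 0 := by
  obtain ⟨i, hi⟩ := hc (σ (vx 0 0))
  refine ⟨i, fun x => ?_⟩
  have : Unique (Fin (0 + 1)) := inferInstanceAs (Unique (Fin 1))
  rwa [show x = vx 0 0 from Subsingleton.elim _ _]

/-! ### Cochains -/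

/-- the coboundary of a function cochain -/
noncomputable def cob (n : ℕ) (c : C(Dl n, X) → ZMod 2) (σ : C(Dl (n + 1), X)) : ZMod 2 :=
  ∑ i : Fin (n + 2), c (σ.comp (fc n i))

/-- the linear functional of a cochain -/
noncomputable def ev {n : ℕ} (c : C(Dl n, X) → ZMod 2) : Ch X n →ₗ[ZMod 2] ZMod 2 :=
  linearCombination (ZMod 2) c

@[simp] theorem ev_single {n : ℕ} (c : C(Dl n, X) → ZMod 2) (σ : C(Dl n, X)) :
    ev c (single σ 1) = c σ := by simp [ev]

theorem ev_dd {n : ℕ} (c : C(Dl n, X) → ZMod 2) (b : Ch X (n + 1)) :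
    ev c (dd n b) = ev (cob n c) b := by
  have : (ev c).comp (dd n) = ev (cob n c) := by
    refine ch_ext fun σ => ?_
    rw [LinearMap.comp_apply, dd_single, map_sum, ev_single, cob]
    simp_rw [ev_single]
  exact LinearMap.congr_fun this b

theorem ev_small {U : ι → Set X} {n : ℕ} {c : C(Dl n, X) → ZMod 2} (h : ∀ σ ∈ Sml U n, c σ = 0)
    {b : Ch X n} (hb : b ∈ Sub U n) : ev c b = 0 := by
  rw [Sub, supported_eq_span_single] at hb
  induction hb using Submodule.span_induction with
  | mem x hx => obtain ⟨a, ha, rfl⟩ := hx; rw [ev_single, h a ha]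
  | zero => rw [map_zero]
  | add x y _ _ hx hy => rw [map_add, hx, hy, add_zero]
  | smul r x _ hx => rw [map_smul, hx, smul_zero]

/-- a functional which vanishes on the kernel factors -/
theorem exists_functional {K V W : Type*} [Field K] [AddCommGroup V] [Module K V] [AddCommGroup W]
    [Module K W] (φ : V →ₗ[K] W) (ψ : V →ₗ[K] K) (h : ∀ v, φ v = 0 → ψ v = 0) :
    ∃ B : W →ₗ[K] K, ∀ v, B (φ v) = ψ v := by
  have hψ : ψ ∈ (LinearMap.ker φ).dualAnnihilator := by
    rw [Submodule.mem_dualAnnihilator]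
    exact fun w hw => h w hw
  rw [← LinearMap.range_dualMap_eq_dualAnnihilator_ker] at hψ
  obtain ⟨B, hB⟩ := hψ
  exact ⟨B, fun v => LinearMap.congr_fun hB v⟩

theorem exists_functional2 {V W : Type*} [AddCommGroup V] [Module (ZMod 2) V] [AddCommGroup W]
    [Module (ZMod 2) W] (φ : V →ₗ[ZMod 2] W) (ψ : V →ₗ[ZMod 2] ZMod 2)
    (h : ∀ v, φ v = 0 → ψ v = 0) : ∃ B : W →ₗ[ZMod 2] ZMod 2, ∀ v, B (φ v) = ψ v :=
  exists_functional φ ψ h

/-- **The small simplices theorem for cochains**: a cocycle which vanishes on the small simplices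
is the coboundary of a cochain which vanishes on the small simplices. -/
theorem small_cochain {U : ι → Set X} (hU : ∀ i, IsOpen (U i)) (hc : ∀ x, ∃ i, x ∈ U i)
    {n : ℕ} (c : C(Dl (n + 1), X) → ZMod 2) (h0 : ∀ σ ∈ Sml U (n + 1), c σ = 0)
    (h1 : ∀ τ, cob (n + 1) c τ = 0) :
    ∃ b : C(Dl n, X) → ZMod 2, (∀ σ ∈ Sml U n, b σ = 0) ∧ ∀ τ, cob n b τ = c τ := by
  let φ : (Sub U n) × Ch X (n + 1) →ₗ[ZMod 2] Ch X n := LinearMap.coprod (Sub U n).subtype (dd n)
  let ψ : (Sub U n) × Ch X (n + 1) →ₗ[ZMod 2] ZMod 2 := (ev c).comp (LinearMap.snd _ _ _)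
  have hcob : ∀ b, ev c (dd (n + 1) b) = 0 := fun b => by
    rw [ev_dd]
    have : cob (n + 1) c = fun _ => 0 := funext h1
    rw [this]
    have h2 : ev (fun _ : C(Dl (n + 2), X) => (0 : ZMod 2)) = 0 := ch_ext fun σ => by
      rw [ev_single, LinearMap.zero_apply]
    rw [h2, LinearMap.zero_apply]
  have hψ : ∀ v, φ v = 0 → ψ v = 0 := by
    rintro ⟨e, x⟩ hx
    have hx' : (e : Ch X n) + dd n x = 0 := hx
    have hx2 : dd n x ∈ Sub U n := by
      have : dd n x = (e : Ch X n) := by
        rw [← add_zero (dd n x), ← hx', add_comm (e : Ch X n), ← add_assoc, ch_add_self, zero_add]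
      rw [this]
      exact e.2
    obtain ⟨e', b, he', rfl⟩ := exists_of_dd_small hU hc x hx2
    show ev c (e' + dd (n + 1) b) = 0
    rw [map_add, hcob, add_zero, ev_small h0 he']
  obtain ⟨B, hB'⟩ := exists_functional2 (V := (Sub U n) × Ch X (n + 1)) (W := Ch X n) φ ψ hψ
  refine ⟨fun σ => B (single σ 1), fun σ hσ => ?_, fun τ => ?_⟩
  · have := hB' (⟨single σ 1, single_mem_supported _ _ hσ⟩, 0)
    simpa [φ, ψ] using this
  · have := hB' (0, single τ 1)
    have h3 : φ (0, single τ 1) = dd n (single τ 1) := by simp [φ]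
    rw [h3, dd_single, map_sum] at this
    rw [cob, this]
    show ev c (single τ 1) = c τ
    rw [ev_single]

end Vale.Agent.P263.T0.Small
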