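import Vale.Agent.P263.T0.SphI
import Mathlib.LinearAlgebra.Dual.Lemmas
import Mathlib.Data.ZMod.Basic
import Mathlib.Algebra.Field.ZMod

/-!
# P263, statement layer: mod 2 cochains of a space which is a point with one cell

From the integral statement `HGen univ {x₀} n σ` (file `SphI`) to functions on simplices with values
in `ZMod 2`.
-/

open Topology Set Vale.Agent.P246.T Vale.Agent.P246.T.FM

namespace Vale.Agent.P263.T0.SphH

section Abs

variable {X : Type} [TopologicalSpace X] {x₀ : X}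

theorem acy_point (x₀ : X) : Acy ({x₀} : Set X) := by
  apply acy_of_sub
  refine acy_of_contr PR.op (⟨x₀, rfl⟩ : ({x₀} : Set X)) ⟨fun q => q.2, by fun_prop⟩
    (fun _ => rfl) fun x => ?_
  exact Subtype.ext x.2

/-- absolute cycles in the other degrees bound -/
theorem bounds_of_ne {n : ℕ} {z : Ch n X} (hz : HGen univ {x₀} n z) {k : ℕ} (hk : k ≠ n)
    {c : Ch k X} (hc : RedCyc k c) : ∃ b, bd k b = c := by
  obtain ⟨b, -, hb⟩ := bound' (acy_point x₀) (subset_univ _) hc
    (hz.zero k hk c (mem_univ_con _ _) (hc.rcyc _))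
  exact ⟨b, hb⟩

/-- the fundamental cycle -/
noncomputable def cyc (x₀ : X) {n : ℕ} (σ : C(Dl (n + 1), X)) : Ch n X :=
  Finsupp.single σ 1 - ksx n x₀

theorem cyc_sub_mem (x₀ : X) {n : ℕ} (σ : C(Dl (n + 1), X)) :
    Finsupp.single σ 1 - cyc x₀ σ ∈ Con {x₀} n := by
  rw [cyc, sub_sub_cancel]
  exact SD.single_mem (fun _ => rfl) 1

theorem redCyc_cyc {n : ℕ} {σ : C(Dl (n + 1), X)} (hσ : ∀ x ∈ bdD n, σ x = x₀) :
    RedCyc n (cyc x₀ σ) := by
  cases n with
  | zero =>
    change wt 0 _ = 0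
    rw [cyc, map_sub, wt_single, wt_ksx, sub_self]
  | succ n =>
    change bd n _ = 0
    rw [cyc, ksx, map_sub, SD.bds, SD.bds, ← Finset.sum_sub_distrib]
    apply Finset.sum_eq_zero
    intro i _
    rw [← smul_sub]
    have : σ.comp (face (n + 1) i) = (ContinuousMap.const _ x₀).comp (face (n + 1) i) := by
      ext1 x
      exact hσ _ ⟨i, CV.face_self _ _ _⟩
    rw [this, sub_self, smul_zero]

theorem exists_mul {n : ℕ} {σ : C(Dl (n + 1), X)} (hz : HGen univ {x₀} n (Finsupp.single σ 1))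
    (hσ : ∀ x ∈ bdD n, σ x = x₀) {c : Ch n X} (hc : RedCyc n c) :
    ∃ (m : ℤ) (b : Ch (n + 1) X), c = m • cyc x₀ σ + bd n b := by
  obtain ⟨m, hm⟩ := hz.gen c (mem_univ_con _ _) (hc.rcyc _)
  obtain ⟨b, -, hb⟩ := bound' (acy_point x₀) (subset_univ _)
    (hc.sub ((redCyc_cyc hσ).smul m)) (B := univ) (z := c - m • cyc x₀ σ) (by
      obtain ⟨b, hb, h⟩ := hm
      refine ⟨b, hb, ?_⟩
      have := add_mem h (Submodule.smul_mem _ m (cyc_sub_mem x₀ σ))
      convert this using 1
      rw [smul_sub]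
      abel)
  exact ⟨m, b, by rw [hb]; abel⟩

theorem eq_zero_of_bd {n : ℕ} {σ : C(Dl (n + 1), X)}
    (hz : HGen univ {x₀} n (Finsupp.single σ 1)) {m : ℤ} {b : Ch (n + 1) X}
    (h : bd n b = m • cyc x₀ σ) : m = 0 := by
  apply hz.tf
  refine ⟨b, mem_univ_con _ _, ?_⟩
  rw [h, ← smul_sub]
  exact Submodule.smul_mem _ m (cyc_sub_mem x₀ σ)

/-- the homology is torsion free -/
theorem bounds_of_two {n : ℕ} {σ : C(Dl (n + 1), X)}
    (hz : HGen univ {x₀} n (Finsupp.single σ 1)) (hσ : ∀ x ∈ bdD n, σ x = x₀) {k : ℕ}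
    {c : Ch k X} (hc : RedCyc k c) {b : Ch (k + 1) X} (h : bd k b = (2 : ℤ) • c) :
    ∃ b', bd k b' = c := by
  by_cases hk : k = n
  · subst hk
    obtain ⟨m, b', hb'⟩ := exists_mul hz hσ hc
    have h2 : bd k (b - (2 : ℤ) • b') = (2 * m) • cyc x₀ σ := by
      rw [map_sub, map_smul, h, hb', smul_add, mul_smul]
      abel
    have h3 := eq_zero_of_bd hz h2
    have h4 : m = 0 := by omega
    exact ⟨b', by rw [hb', h4, zero_smul, zero_add]⟩
  · exact bounds_of_ne hz hk hc

end Abs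

/-! ### Reduction mod 2 -/

section Red

variable {X : Type} [TopologicalSpace X]

/-- chains mod 2 -/
abbrev C2 (n : ℕ) (X : Type) [TopologicalSpace X] : Type := C(Dl (n + 1), X) →₀ ZMod 2

/-- reduction mod 2 -/
noncomputable def red (n : ℕ) : Ch n X →ₗ[ℤ] C2 n X :=
  Finsupp.mapRange.linearMap (Int.castRingHom (ZMod 2)).toIntAlgHom.toLinearMap

theorem red_apply {n : ℕ} (c : Ch n X) (σ : C(Dl (n + 1), X)) : red n c σ = (c σ : ZMod 2) := rfl

theorem red_single {n : ℕ} (σ : C(Dl (n + 1), X)) (a : ℤ) :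
    red n (Finsupp.single σ a) = Finsupp.single σ (a : ZMod 2) := by
  rw [red, Finsupp.mapRange.linearMap_apply, Finsupp.mapRange_single]
  rfl

theorem red_surjective (n : ℕ) : Function.Surjective (red (X := X) n) := by
  intro c
  refine ⟨c.mapRange (fun a => (a.val : ℤ)) (by simp), ?_⟩
  ext σ
  rw [red_apply, Finsupp.mapRange_apply]
  simp

theorem red_eq_zero {n : ℕ} {c : Ch n X} (h : red n c = 0) : ∃ e : Ch n X, c = (2 : ℤ) • e := by
  refine ⟨c.mapRange (fun a => a / 2) (by simp), ?_⟩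
  ext σ
  have := DFunLike.congr_fun h σ
  rw [red_apply, Finsupp.zero_apply, ZMod.intCast_zmod_eq_zero_iff_dvd] at this
  rw [Finsupp.smul_apply, Finsupp.mapRange_apply, smul_eq_mul]
  obtain ⟨b, hb⟩ := this
  rw [hb]
  omega

/-- the boundary mod 2 -/
noncomputable def bd2 (n : ℕ) : C2 (n + 1) X →ₗ[ZMod 2] C2 n X :=
  Finsupp.linearCombination (ZMod 2) fun σ : C(Dl (n + 2), X) =>
    ∑ i : Fin (n + 2), Finsupp.single (σ.comp (face (n + 1) i)) 1

theorem neg_one_pow_two (i : ℕ) : ((((-1 : ℤ) ^ i : ℤ)) : ZMod 2) = 1 := by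
  rw [Int.cast_pow, Int.cast_neg, Int.cast_one]
  have : (-1 : ZMod 2) = 1 := rfl
  rw [this, one_pow]

theorem red_bd (n : ℕ) (c : Ch (n + 1) X) : red n (bd n c) = bd2 n (red (n + 1) c) := by
  induction c using Finsupp.induction_linear with
  | zero => simp only [map_zero]
  | add a b ha hb => simp only [map_add, ha, hb]
  | single σ a =>
    rw [bd_single, map_sum, red_single, bd2, Finsupp.linearCombination_single, Finset.smul_sum]
    refine Finset.sum_congr rfl fun i _ => ?_
    rw [red_single, Int.cast_mul, neg_one_pow_two, mul_one, Finsupp.smul_single, smul_eq_mul,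
      mul_one]

/-- the linear form of a function on simplices -/
noncomputable def fl {n : ℕ} (f : C(Dl (n + 1), X) → ZMod 2) : C2 n X →ₗ[ZMod 2] ZMod 2 :=
  Finsupp.linearCombination (ZMod 2) f

theorem fl_single {n : ℕ} (f : C(Dl (n + 1), X) → ZMod 2) (σ : C(Dl (n + 1), X)) (a : ZMod 2) :
    fl f (Finsupp.single σ a) = a * f σ := by
  rw [fl, Finsupp.linearCombination_single, smul_eq_mul]

/-- the coboundary of a function on simplices -/
noncomputable def cob {n : ℕ} (f : C(Dl (n + 1), X) → ZMod 2) (τ : C(Dl (n + 2), X)) : ZMod 2 :=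
  ∑ i : Fin (n + 2), f (τ.comp (face (n + 1) i))

theorem fl_bd2 {n : ℕ} (f : C(Dl (n + 1), X) → ZMod 2) (c : C2 (n + 1) X) :
    fl f (bd2 n c) = fl (cob f) c := by
  induction c using Finsupp.induction_linear with
  | zero => simp only [map_zero]
  | add a b ha hb => simp only [map_add, ha, hb]
  | single σ a =>
    rw [bd2, Finsupp.linearCombination_single, map_smul, map_sum, fl_single, smul_eq_mul]
    congr 1
    refine Finset.sum_congr rfl fun i _ => ?_
    rw [fl_single, one_mul]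

theorem fl_eq_zero {n : ℕ} {f : C(Dl (n + 1), X) → ZMod 2} (h : f = 0) (c : C2 n X) :
    fl f c = 0 := by
  rw [h, fl]
  induction c using Finsupp.induction_linear with
  | zero => simp only [map_zero]
  | add a b ha hb => rw [map_add, ha, hb, add_zero]
  | single σ a => rw [Finsupp.linearCombination_single, Pi.zero_apply, smul_zero]

theorem fl_bd_zero {n : ℕ} {f : C(Dl (n + 1), X) → ZMod 2} (h : cob f = 0) (c : Ch (n + 1) X) :
    fl f (red n (bd n c)) = 0 := by
  rw [red_bd, fl_bd2]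
  exact fl_eq_zero h _

theorem red_two {n : ℕ} (c : Ch n X) : red n ((2 : ℤ) • c) = 0 := by
  ext σ
  rw [red_apply, Finsupp.smul_apply, smul_eq_mul, Int.cast_mul, Finsupp.zero_apply]
  have : ((2 : ℤ) : ZMod 2) = 0 := rfl
  rw [this, zero_mul]

theorem redCyc_of_two {n : ℕ} {c : Ch n X} (h : RedCyc n ((2 : ℤ) • c)) : RedCyc n c := by
  cases n with
  | zero =>
    change wt 0 _ = 0
    have h' : wt 0 ((2 : ℤ) • c) = 0 := h
    rw [map_smul, smul_eq_mul] at h'
    omega
  | succ n =>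
    change bd n _ = 0
    have h' : bd n ((2 : ℤ) • c) = 0 := h
    rw [map_smul] at h'
    exact (smul_eq_zero.1 h').resolve_left (by norm_num)

/-- The criterion: a function which vanishes on the integral cycles is a coboundary, if the
homology one degree below has no 2-torsion. -/
theorem exists_cob {n : ℕ} {f : C(Dl (n + 2), X) → ZMod 2}
    (h2 : ∀ (c : Ch n X), RedCyc n c → ∀ b : Ch (n + 1) X, bd n b = (2 : ℤ) • c →
      ∃ b', bd n b' = c)
    (hf : ∀ c : Ch (n + 1) X, bd n c = 0 → fl f (red (n + 1) c) = 0) : ∃ g, f = cob g := by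
  have hk : LinearMap.ker (bd2 (X := X) n) ≤ LinearMap.ker (fl f) := by
    intro c hc
    rw [LinearMap.mem_ker] at hc ⊢
    obtain ⟨x, rfl⟩ := red_surjective (n + 1) c
    rw [← red_bd] at hc
    obtain ⟨e, he⟩ := red_eq_zero hc
    obtain ⟨g, hg⟩ := h2 e (redCyc_of_two (by rw [← he]; exact redCyc_bd n x)) x he
    have h3 := hf (x - (2 : ℤ) • g) (by rw [map_sub, map_smul, hg, he, sub_self])
    rw [map_sub, red_two, sub_zero] at h3
    exact h3
  have hr : fl f ∈ LinearMap.range (bd2 (X := X) n).dualMap := by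
    rw [LinearMap.range_dualMap_eq_dualAnnihilator_ker, Submodule.mem_dualAnnihilator]
    intro c hc
    exact hk hc
  obtain ⟨l, hl⟩ := hr
  refine ⟨fun σ => l (Finsupp.single σ 1), funext fun τ => ?_⟩
  have h3 := LinearMap.congr_fun hl (Finsupp.single τ 1)
  rw [LinearMap.dualMap_apply, fl_single, one_mul, bd2, Finsupp.linearCombination_single,
    one_smul, map_sum] at h3
  exact h3.symm

/-- A reduced cycle which is not divisible by 2 up to boundaries is detected by a cocycle. -/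
theorem exists_cocycle {n : ℕ} {z : Ch n X}
    (h : ∀ (e : Ch n X) (b : Ch (n + 1) X), z ≠ bd n b + (2 : ℤ) • e) :
    ∃ f : C(Dl (n + 1), X) → ZMod 2, cob f = 0 ∧ fl f (red n z) = 1 := by
  have hz : red n z ∉ LinearMap.range (bd2 (X := X) n) := by
    rintro ⟨c, hc⟩
    obtain ⟨b, rfl⟩ := red_surjective (n + 1) c
    rw [← red_bd, eq_comm, ← sub_eq_zero, ← map_sub] at hc
    obtain ⟨e, he⟩ := red_eq_zero hc
    exact h e b (by rw [← he]; abel)
  obtain ⟨l, h1, h2⟩ := Submodule.exists_le_ker_of_notMem hz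
  have h0 : ∀ a : ZMod 2, a ≠ 0 → a = 1 := by decide
  have hl : fl (fun σ => l (Finsupp.single σ 1)) = l := by
    ext σ
    simp [fl_single]
  refine ⟨fun σ => l (Finsupp.single σ 1), funext fun τ => ?_, ?_⟩
  · have h3 : l (bd2 n (Finsupp.single τ 1)) = 0 := h2 ⟨_, rfl⟩
    rw [bd2, Finsupp.linearCombination_single, one_smul, map_sum] at h3
    exact h3
  · rw [hl]
    exact h0 _ h1

end Red

/-! ### The result -/

section Result

variable {X : Type} [TopologicalSpace X] {x₀ : X} {n : ℕ} {σ : C(Dl (n + 1), X)}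

theorem fl_cyc (f : C(Dl (n + 1), X) → ZMod 2) :
    fl f (red n (cyc x₀ σ)) = f σ + f (ContinuousMap.const _ x₀) := by
  rw [cyc, ksx, map_sub, red_single, red_single, map_sub, fl_single, fl_single, Int.cast_one,
    one_mul, one_mul, CharTwo.sub_eq_add]

/-- cohomology in the other positive degrees -/
theorem cob_of_ne (hz : HGen univ {x₀} n (Finsupp.single σ 1)) (hσ : ∀ x ∈ bdD n, σ x = x₀)
    {k : ℕ} (hk : k + 1 ≠ n) {f : C(Dl (k + 2), X) → ZMod 2} (hf : cob f = 0) :
    ∃ g, f = cob g := by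
  refine exists_cob (fun c hc b hb => bounds_of_two hz hσ hc hb) fun c hc => ?_
  obtain ⟨b, rfl⟩ := bounds_of_ne hz hk (k := k + 1) (c := c) hc
  exact fl_bd_zero hf b

/-- cohomology in degree zero, for `0 ≠ n` -/
theorem const_of_zero (hz : HGen univ {x₀} n (Finsupp.single σ 1)) (hn : 0 ≠ n)
    {f : C(Dl 1, X) → ZMod 2} (hf : cob f = 0) (τ : C(Dl 1, X)) :
    f τ = f (ContinuousMap.const _ x₀) := by
  obtain ⟨b, hb⟩ := bounds_of_ne hz hn (k := 0) (c := Finsupp.single τ 1 - ksx 0 x₀) (by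
    change wt 0 _ = 0
    rw [map_sub, wt_single, wt_ksx, sub_self])
  have := fl_bd_zero hf b
  rw [hb, ksx, map_sub, red_single, red_single, map_sub, fl_single, fl_single, Int.cast_one,
    one_mul, one_mul, sub_eq_zero] at this
  exact this

/-- cohomology in the degree of the cell -/
theorem cob_iff {n : ℕ} {σ : C(Dl (n + 2), X)}
    (hz : HGen univ {x₀} (n + 1) (Finsupp.single σ 1)) (hσ : ∀ x ∈ bdD (n + 1), σ x = x₀)
    {f : C(Dl (n + 2), X) → ZMod 2} (hf : cob f = 0) :
    (∃ g, f = cob g) ↔ f σ + f (ContinuousMap.const _ x₀) = 0 := by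
  rw [← fl_cyc]
  constructor
  · rintro ⟨g, rfl⟩
    rw [← fl_bd2, ← red_bd, show bd n (cyc x₀ σ) = 0 from redCyc_cyc hσ, map_zero, map_zero]
  · intro h
    refine exists_cob (fun c hc b hb => bounds_of_two hz hσ hc hb) fun c hc => ?_
    obtain ⟨m, b, rfl⟩ := exists_mul hz hσ (n := n + 1) (c := c) hc
    rw [map_add, map_add, fl_bd_zero hf, add_zero, map_smul, map_zsmul, h, smul_zero]

/-- the fundamental cocycle -/
theorem exists_fund_cocycle (hz : HGen univ {x₀} n (Finsupp.single σ 1))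
    (hσ : ∀ x ∈ bdD n, σ x = x₀) :
    ∃ f : C(Dl (n + 1), X) → ZMod 2, cob f = 0 ∧ f σ + f (ContinuousMap.const _ x₀) = 1 := by
  have key : ∀ (e : Ch n X) (b : Ch (n + 1) X), cyc x₀ σ ≠ bd n b + (2 : ℤ) • e := by
    intro e b h
    have h1 : RedCyc n ((2 : ℤ) • e) := by
      have : (2 : ℤ) • e = cyc x₀ σ - bd n b := by rw [h]; abel
      rw [this]
      exact (redCyc_cyc hσ).sub (redCyc_bd n b)
    obtain ⟨m, g, hg⟩ := exists_mul hz hσ (redCyc_of_two h1)
    have h2 : bd n (b + (2 : ℤ) • g) = (1 - 2 * m) • cyc x₀ σ := by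
      rw [map_add, map_smul, sub_smul, one_smul, mul_smul]
      nth_rewrite 1 [h]
      rw [hg, smul_add]
      abel
    have := eq_zero_of_bd hz h2
    omega
  obtain ⟨f, h1, h2⟩ := exists_cocycle key
  exact ⟨f, h1, by rw [← fl_cyc, h2]⟩

end Result

end Vale.Agent.P263.T0.SphH
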