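import Vale.Agent.P246.T.FM
import Vale.Agent.P246.T.CL
import Vale.Agent.P246.T.CC
import Vale.Agent.P246.T.SD
import Vale.Agent.P246.T.PR
import Vale.Agent.P246.T.CV

/-!
# P263, statement layer: the characteristic simplex of a cell

`HGen B A n z` : the group `H_n(B, A)` is infinite cyclic, generated by the class of `z`, and
`H_k(B, A) = 0` for `k ≠ n` (integral singular homology, subsets of a space `M`).

Main result `hgen_simplex`: if the space `B` is obtained from the closed set `A` by attaching an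
`n`-cell with the characteristic simplex `σ : Δⁿ → M`, then `HGen B A n σ`.
-/

open Topology Set Vale.Agent.P246.T Vale.Agent.P246.T.FM

namespace Vale.Agent.P263.T0.SphH

section Gen

variable {M : Type} [TopologicalSpace M]

/-- `H_n(B, A)` is infinite cyclic with the generator `z`, the other groups are zero. -/
structure HGen (B A : Set M) (n : ℕ) (z : Ch n M) : Prop where
  mem : z ∈ Con B n
  cyc : RCyc A n z
  zero : ∀ k, k ≠ n → HZero B A k
  gen : ∀ c ∈ Con B n, RCyc A n c → ∃ m : ℤ, Null B A n (c - m • z)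
  tf : ∀ m : ℤ, Null B A n (m • z) → m = 0

variable {B A : Set M}

/-- a reduced cycle of `B` which bounds modulo `A` bounds -/
theorem bound' (hA : Acy A) (hAB : A ⊆ B) {k : ℕ} {z : Ch k M} (hz : RedCyc k z)
    (h : Null B A k z) : ∃ b ∈ Con B (k + 1), bd k b = z := by
  obtain ⟨b1, hb1, h1⟩ := h
  obtain ⟨b2, hb2, h2⟩ := hA k _ h1 (hz.sub (redCyc_bd k b1))
  refine ⟨b1 + b2, add_mem hb1 (con_mono hAB hb2), ?_⟩
  rw [map_add, h2]
  abel

/-- chains whose boundary bounds in `B` are null -/
theorem null_of' (hM : Acy (univ : Set M)) {k : ℕ} {c : Ch (k + 1) M}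
    (h : ∃ b ∈ Con B (k + 1), bd k b = bd k c) : Null univ B (k + 1) c := by
  obtain ⟨b, hb, h⟩ := h
  obtain ⟨b3, hb3, h3⟩ := hM (k + 1) (c - b) (mem_univ_con _ _) (by
    change bd k (c - b) = 0
    rw [map_sub, h, sub_self])
  refine ⟨b3, hb3, ?_⟩
  rw [h3, sub_sub_cancel]
  exact hb

theorem hgen_succ (hM : Acy (univ : Set M)) (hA : Acy A) (hAB : A ⊆ B) {x₀ : M} (hx : x₀ ∈ B)
    {n : ℕ} {z : Ch n M} (hz : HGen B A n z) {y : Ch (n + 1) M} (h1 : bd n y ∈ Con B n)
    (h2 : bd n y - z ∈ Con A n) : HGen (univ : Set M) B (n + 1) y := by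
  refine ⟨mem_univ_con _ _, h1, ?_, ?_, ?_⟩
  · intro k hk c _ hc
    cases k with
    | zero =>
      obtain ⟨b, hb, h⟩ := hM 0 (c - wt 0 c • ksx 0 x₀) (mem_univ_con _ _) (by
          change wt 0 _ = 0
          rw [map_sub, map_smul, wt_ksx, smul_eq_mul, mul_one, sub_self])
      refine ⟨b, hb, ?_⟩
      rw [h, sub_sub_cancel]
      apply Submodule.smul_mem
      exact SD.single_mem (fun _ => hx) 1
    | succ k =>
      apply null_of' hM
      have hc' : bd k c ∈ Con B k := hc
      exact bound' hA hAB (redCyc_bd k c)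
        (hz.zero k (by omega) _ hc' ((redCyc_bd k c).rcyc _))
  · intro c _ hc
    have hc' : bd n c ∈ Con B n := hc
    obtain ⟨m, hm⟩ := hz.gen _ hc' ((redCyc_bd n c).rcyc _)
    refine ⟨m, null_of' hM (bound' hA hAB (redCyc_bd n _) ?_)⟩
    obtain ⟨b, hb, h⟩ := hm
    refine ⟨b, hb, ?_⟩
    have := sub_mem h (Submodule.smul_mem _ m h2)
    convert this using 1
    rw [map_sub, map_smul, smul_sub]
    abel
  · rintro m ⟨b, hb, h⟩
    apply hz.tf
    refine ⟨m • y - bd (n + 1) b, h, ?_⟩
    have := Submodule.smul_mem _ (-m) h2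
    convert this using 1
    rw [map_sub, map_smul, SD.bd_bd, sub_zero, smul_sub, neg_smul, neg_smul]
    abel

/-- the inclusion of a subset -/
def inc (S : Set M) : C(S, M) := ⟨Subtype.val, continuous_subtype_val⟩

/-- chains in a set come from the subspace -/
theorem exists_push_sub (S : Set M) {n : ℕ} {b : Ch n M} (hb : b ∈ Con S n) :
    ∃ b' : Ch n S, push (inc S) n b' = b := by
  classical
  rw [Vale.Agent.P246.T.Con, Finsupp.mem_supported] at hb
  refine ⟨b.support.attach.sum fun σ => Finsupp.single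
    (⟨fun x => ⟨σ.1 x, hb σ.2 x⟩, by fun_prop⟩ : C(Dl (n + 1), S)) (b σ.1), ?_⟩
  rw [map_sum]
  conv_rhs => rw [← Finsupp.sum_single b, Finsupp.sum, ← Finset.sum_attach]
  refine Finset.sum_congr rfl fun σ _ => ?_
  rw [push_single]
  rfl

theorem push_sub_injective' (S : Set M) (n : ℕ) :
    Function.Injective (push (inc S) n) := by
  apply Finsupp.mapDomain_injective
  intro σ τ h
  ext x
  exact DFunLike.congr_fun h x

theorem acy_of_sub (S : Set M) (h : Acy (univ : Set S)) : Acy S := by
  intro n c hc hz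
  obtain ⟨c', rfl⟩ := exists_push_sub S hc
  obtain ⟨b, -, hb⟩ := h n c' (mem_univ_con _ _) (by
    cases n with
    | zero =>
      change wt 0 c' = 0
      rw [← wt_push (inc S)]
      exact hz
    | succ n =>
      change bd n c' = 0
      apply push_sub_injective' S n
      rw [← push_bd, map_zero]
      exact hz)
  refine ⟨push (inc S) (n + 1) b, push_mem (A := univ) (fun x _ => x.2) (mem_univ_con _ _), ?_⟩
  rw [push_bd, hb]

end Gen

/-! ### Simplices -/

/-- the straight line homotopy to a point -/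
noncomputable def slide {n : ℕ} (p : Dl n) : C(I × Dl n, Dl n) where
  toFun q := ⟨fun j => (1 - (q.1 : ℝ)) * q.2 j + q.1 * p j, by
    have h1 := q.1.2.1
    have h2 := q.1.2.2
    refine ⟨fun j => ?_, ?_⟩
    · have := stdSimplex.zero_le q.2 j
      have := stdSimplex.zero_le p j
      nlinarith
    · rw [Finset.sum_add_distrib, ← Finset.mul_sum, ← Finset.mul_sum, stdSimplex.sum_eq_one,
        stdSimplex.sum_eq_one]
      ring⟩
  continuous_toFun := by
    refine Continuous.subtype_mk (continuous_pi fun j => ?_) _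
    have h1 : Continuous fun q : I × Dl n => (q.1 : ℝ) :=
      continuous_subtype_val.comp continuous_fst
    have h2 : Continuous fun q : I × Dl n => q.2 j :=
      (continuous_apply j).comp (continuous_subtype_val.comp continuous_snd)
    exact ((continuous_const.sub h1).mul h2).add (h1.mul continuous_const)

theorem slide_apply {n : ℕ} (p : Dl n) (t : I) (x : Dl n) (j : Fin n) :
    slide p (t, x) j = (1 - (t : ℝ)) * x j + t * p j := rfl

theorem slide_zero {n : ℕ} (p : Dl n) (x : Dl n) : slide p (0, x) = x := by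
  apply stdSimplex.ext
  funext j
  rw [slide_apply]
  simp

theorem slide_one {n : ℕ} (p : Dl n) (x : Dl n) : slide p (1, x) = p := by
  apply stdSimplex.ext
  funext j
  rw [slide_apply]
  simp

theorem acy_dl (n : ℕ) (p : Dl n) : Acy (univ : Set (Dl n)) :=
  acy_of_contr PR.op p (slide p) (slide_zero p) (slide_one p)

/-- the boundary of the simplex -/
def bdD (n : ℕ) : Set (Dl (n + 1)) := {x | ∃ i, x i = 0}

/-- the horn opposite to the `0`-th face: the union of the other faces -/
def horn (n : ℕ) : Set (Dl (n + 2)) := {x | ∃ i, i ≠ 0 ∧ x i = 0}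

theorem isClosed_horn (n : ℕ) : IsClosed (horn n) := by
  have : horn n = ⋃ i : {i : Fin (n + 2) // i ≠ 0}, {x : Dl (n + 2) | x i.1 = 0} := by
    ext x
    simp [horn]
  rw [this]
  refine isClosed_iUnion_of_finite fun i => isClosed_eq ?_ continuous_const
  exact (continuous_apply i.1).comp continuous_subtype_val

theorem acy_horn (n : ℕ) : Acy (horn n) := by
  apply acy_of_sub
  have hv : ∀ i : Fin (n + 2), i ≠ 0 → (stdSimplex.vertex (0 : Fin (n + 2)) : Dl (n + 2)) i = 0 := by
    intro i hi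
    rw [stdSimplex.vertex_coe, Pi.single_apply, if_neg hi]
  have hp : (stdSimplex.vertex (0 : Fin (n + 2)) : Dl (n + 2)) ∈ horn n :=
    ⟨Fin.last _, Fin.last_pos.ne', hv _ Fin.last_pos.ne'⟩
  refine acy_of_contr PR.op (⟨_, hp⟩ : horn n)
    ⟨fun q => ⟨slide (stdSimplex.vertex 0) (q.1, q.2.1), ?_⟩, ?_⟩ ?_ ?_
  · obtain ⟨i, hi, h⟩ := q.2.2
    refine ⟨i, hi, ?_⟩
    rw [slide_apply, h, hv i hi]
    simp
  · fun_prop
  · intro x
    exact Subtype.ext (slide_zero _ _)
  · intro x
    exact Subtype.ext (slide_one _ _)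

/-- the identity simplex -/
noncomputable def idS (n : ℕ) : Ch n (Dl (n + 1)) := Finsupp.single (ContinuousMap.id _) 1

/-- A homeomorphism of pairs with the cube. -/
noncomputable def hmS (n : ℕ) : Dl (n + 1) ≃ₜ Dk n := (CV.simplexBall n).choose

theorem hmS_spec (n : ℕ) (x : Dl (n + 1)) : x ∈ bdD n ↔ hmS n x ∈ bdk n :=
  (CV.simplexBall n).choose_spec x

/-- the homeomorphism as a simplex in the cube -/
noncomputable def hmC (n : ℕ) : C(Dl (n + 1), Dk n) := ⟨hmS n, (hmS n).continuous⟩

section General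

variable {X : Type} [TopologicalSpace X] [T2Space X]

/-- The homology of a cell, from the fundamental class of the cube. -/
theorem hgen_of_fund {n : ℕ} (hf : IsFund n (Finsupp.single (hmC n) 1)) {A B : Set X}
    (hA : IsClosed A) (σ : C(Dl (n + 1), X)) (h1 : ∀ x ∈ bdD n, σ x ∈ A)
    (h2 : ∀ x, x ∉ bdD n → σ x ∉ A) (h3 : ∀ x y, x ∉ bdD n → y ∉ bdD n → σ x = σ y → x = y)
    (h4 : B = A ∪ range σ) : HGen B A n (Finsupp.single σ 1) := by
  have hs : ∀ x : Dk n, ‖(x : Fin n → ℝ)‖ = 1 → (hmS n).symm x ∈ bdD n := by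
    intro x hx
    rw [hmS_spec, Homeomorph.apply_symm_apply]
    exact hx
  have hs' : ∀ x : Dk n, ‖(x : Fin n → ℝ)‖ < 1 → (hmS n).symm x ∉ bdD n := by
    intro x hx h
    rw [hmS_spec, Homeomorph.apply_symm_apply] at h
    exact hx.ne h
  let Φ : C(Dk n, X) := σ.comp ⟨(hmS n).symm, (hmS n).symm.continuous⟩
  have hΦ : ∀ x, Φ x = σ ((hmS n).symm x) := fun _ => rfl
  have hat : Attach n A B Φ := by
    refine ⟨fun x hx => h1 _ (hs x hx), fun x hx => h2 _ (hs' x hx), ?_, ?_⟩
    · intro x y hx hy h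
      exact (hmS n).symm.injective (h3 _ _ (hs' x hx) (hs' y hy) h)
    · rw [h4]
      congr 1
      ext y
      constructor
      · rintro ⟨x, rfl⟩
        exact ⟨hmS n x, by rw [hΦ, Homeomorph.symm_apply_apply]⟩
      · rintro ⟨x, rfl⟩
        exact ⟨_, rfl⟩
  have hp : push Φ n (Finsupp.single (hmC n) 1) = Finsupp.single σ 1 := by
    rw [push_single]
    congr 1
    ext x
    change Φ (hmS n x) = σ x
    rw [hΦ, Homeomorph.symm_apply_apply]
  obtain ⟨e1, e2, e3⟩ := CL.main X n Unit B A (fun _ => Φ) _ hf (CC.main1 X n A B Φ hA hat)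
  refine ⟨SD.single_mem (fun x => by rw [h4]; exact Or.inr ⟨x, rfl⟩) 1, ?_, e1, ?_, ?_⟩
  · rw [← hp]
    cases n with
    | zero => trivial
    | succ n =>
      change bd n _ ∈ Con A n
      rw [push_bd]
      exact push_mem (fun x hx => hat.bdry x hx) hf.cyc
  · intro c hc hc'
    obtain ⟨m, hm⟩ := e2 c hc hc'
    rw [sum_unit, hp] at hm
    exact ⟨m (), hm⟩
  · intro m hm
    have := e3 (Finsupp.single () m) (by rw [sum_unit, hp]; simpa using hm)
    simpa using this

end General

theorem face_mem_horn {n : ℕ} {i : Fin (n + 2)} (hi : i ≠ 0) (x : Dl (n + 1)) :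
    face (n + 1) i x ∈ horn n := ⟨i, hi, CV.face_self _ _ _⟩

theorem bdk_of_hmC {n : ℕ} {x : Dl (n + 1)} (h : x ∈ bdD n) : hmC n x ∈ bdk n :=
  (hmS_spec n x).1 h

/-- the boundary of the identity simplex -/
theorem bd_idS (n : ℕ) : bd n (idS (n + 1)) =
    ∑ i : Fin (n + 2), (-1 : ℤ) ^ (i : ℕ) • Finsupp.single (face (n + 1) i) (1 : ℤ) := by
  rw [idS, SD.bds]
  rfl

theorem fund_hm : ∀ n, IsFund n (Finsupp.single (hmC n) 1) := by
  intro n
  induction n with
  | zero =>
    have : (Finsupp.single (hmC 0) 1 : Ch 0 (Dk 0)) = ksx 0 (clp 0 0) := by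
      rw [ksx]
      congr 1
      ext x i
      exact i.elim0
    rw [this]
    exact fund0 PR.op
  | succ n ih =>
    -- the pair (boundary, horn)
    have hg : HGen (bdD (n + 1)) (horn n) n (Finsupp.single (face (n + 1) 0) 1) := by
      refine hgen_of_fund ih (isClosed_horn n) (face (n + 1) 0) ?_ ?_ ?_ ?_
      · rintro x ⟨i, hi⟩
        refine ⟨i.succ, Fin.succ_ne_zero i, ?_⟩
        have := CV.face_succAbove (n + 1) 0 x i
        rw [Fin.zero_succAbove] at this
        rw [this, hi]
      · rintro x hx ⟨i, hi, h⟩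
        obtain ⟨j, rfl⟩ := Fin.exists_succ_eq.2 hi
        apply hx
        refine ⟨j, ?_⟩
        have := CV.face_succAbove (n + 1) 0 x j
        rw [Fin.zero_succAbove] at this
        rw [← this, h]
      · intro x y _ _ h
        apply stdSimplex.ext
        funext j
        change x j = y j
        rw [← CV.face_succAbove (n + 1) 0 x j, h, CV.face_succAbove]
      · ext x
        constructor
        · rintro ⟨i, hi⟩
          by_cases h0 : i = 0
          · right
            subst h0
            obtain ⟨y, hy⟩ := CV.exists_face 0 hi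
            exact ⟨y, hy⟩
          · left
            exact ⟨i, h0, hi⟩
        · rintro (⟨i, -, hi⟩ | ⟨y, rfl⟩)
          · exact ⟨i, hi⟩
          · exact ⟨0, CV.face_self _ _ _⟩
    have hsub : horn n ⊆ bdD (n + 1) := fun x ⟨i, _, hi⟩ => ⟨i, hi⟩
    have hx : face (n + 1) 0 (stdSimplex.vertex 0) ∈ bdD (n + 1) := ⟨0, CV.face_self _ _ _⟩
    have hb2 : bd n (idS (n + 1)) - Finsupp.single (face (n + 1) 0) 1 ∈ Con (horn n) n := by
      rw [bd_idS, Fin.sum_univ_succ]
      rw [Fin.val_zero, pow_zero, one_smul, add_sub_cancel_left]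
      apply sum_mem
      intro i _
      apply Submodule.smul_mem
      exact SD.single_mem (fun x => face_mem_horn (Fin.succ_ne_zero i) x) 1
    have hb1 : bd n (idS (n + 1)) ∈ Con (bdD (n + 1)) n := by
      have := add_mem (con_mono hsub hb2) hg.mem
      rwa [sub_add_cancel] at this
    have hG := hgen_succ (acy_dl _ (stdSimplex.vertex 0)) (acy_horn n) hsub hx hg hb1 hb2
    -- transport to the cube
    have hps : push (hmC (n + 1)) (n + 1) (idS (n + 1)) = Finsupp.single (hmC (n + 1)) 1 := by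
      rw [idS, push_single]
      rfl
    let hi : C(Dk (n + 1), Dl (n + 2)) := ⟨(hmS (n + 1)).symm, (hmS (n + 1)).symm.continuous⟩
    have hhi : hi.comp (hmC (n + 1)) = ContinuousMap.id _ := by
      ext1 x
      exact (hmS (n + 1)).symm_apply_apply x
    have hhi' : (hmC (n + 1)).comp hi = ContinuousMap.id _ := by
      ext1 x
      exact (hmS (n + 1)).apply_symm_apply x
    have m1 : ∀ x ∈ bdD (n + 1), hmC (n + 1) x ∈ bdk (n + 1) := fun x hx => bdk_of_hmC hx
    have m2 : ∀ x ∈ bdk (n + 1), hi x ∈ bdD (n + 1) := by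
      intro x hx
      rw [hmS_spec]
      change hmS (n + 1) ((hmS (n + 1)).symm x) ∈ _
      rw [Homeomorph.apply_symm_apply]
      exact hx
    have r2 : ∀ {k : ℕ} {c : Ch k (Dk (n + 1))}, RCyc (bdk (n + 1)) k c →
        RCyc (bdD (n + 1)) k (push hi k c) := by
      intro k c hc
      cases k with
      | zero => trivial
      | succ k =>
        change bd k _ ∈ _
        rw [push_bd]
        exact push_mem m2 hc
    have nl : ∀ {k : ℕ} {c : Ch k (Dl (n + 2))}, Null univ (bdD (n + 1)) k c →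
        Null univ (bdk (n + 1)) k (push (hmC (n + 1)) k c) := by
      rintro k c ⟨b, -, hb⟩
      refine ⟨push (hmC (n + 1)) (k + 1) b, mem_univ_con _ _, ?_⟩
      rw [push_bd, ← map_sub]
      exact push_mem m1 hb
    have nl' : ∀ {k : ℕ} {c : Ch k (Dk (n + 1))}, Null univ (bdk (n + 1)) k c →
        Null univ (bdD (n + 1)) k (push hi k c) := by
      rintro k c ⟨b, -, hb⟩
      refine ⟨push hi (k + 1) b, mem_univ_con _ _, ?_⟩
      rw [push_bd, ← map_sub]
      exact push_mem m2 hb
    have pp : ∀ {k : ℕ} (c : Ch k (Dk (n + 1))), push (hmC (n + 1)) k (push hi k c) = c := by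
      intro k c
      rw [← push_comp, hhi', push_id]
    refine ⟨?_, ?_, ?_, ?_⟩
    · rw [← hps]
      change bd n _ ∈ _
      rw [push_bd]
      exact push_mem m1 hb1
    · intro k hk c _ hc
      have := nl (hG.zero k hk (push hi k c) (mem_univ_con _ _) (r2 hc))
      rwa [pp] at this
    · intro c hc
      obtain ⟨m, hm⟩ := hG.gen (push hi (n + 1) c) (mem_univ_con _ _) (r2 hc)
      refine ⟨m, ?_⟩
      have := nl hm
      rwa [map_sub, pp, map_smul, hps] at this
    · intro m hm
      apply hG.tf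
      have := nl' hm
      rwa [map_smul, ← hps, ← push_comp, hhi, push_id] at this

/-- THE CHARACTERISTIC SIMPLEX OF A CELL generates the relative homology. -/
theorem hgen_simplex {X : Type} [TopologicalSpace X] [T2Space X] {n : ℕ} {A B : Set X}
    (hA : IsClosed A) (σ : C(Dl (n + 1), X)) (h1 : ∀ x ∈ bdD n, σ x ∈ A)
    (h2 : ∀ x, x ∉ bdD n → σ x ∉ A) (h3 : ∀ x y, x ∉ bdD n → y ∉ bdD n → σ x = σ y → x = y)
    (h4 : B = A ∪ range σ) : HGen B A n (Finsupp.single σ 1) :=
  hgen_of_fund (fund_hm n) hA σ h1 h2 h3 h4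

end Vale.Agent.P263.T0.SphH
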