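import Mathlib.LinearAlgebra.Finsupp.LinearCombination
import Mathlib.LinearAlgebra.Finsupp.Supported
import Mathlib.Data.ZMod.Basic
import Mathlib.Algebra.Field.ZMod
import Mathlib.Data.Fin.Tuple.Basic
import Mathlib.Algebra.BigOperators.Fin

/-!
# P263, statement layer: chains of tuples, barycentric subdivision mod 2

`L P k` : finite chains of `(k+1)`-tuples of points of `P`, coefficients `𝔽₂`.  For an operation
`bar` (the barycenter of a tuple) the subdivision `S` is a chain map and `T` is a chain homotopy
from the identity to `S`.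
-/

namespace Vale.Agent.P263.T0.Tuple

open Finsupp

variable {P Q : Type*}

/-- chains of `(k+1)`-tuples of points, mod 2 -/
abbrev L (P : Type*) (k : ℕ) : Type _ := (Fin (k + 1) → P) →₀ ZMod 2

/-- the chain of one tuple -/
noncomputable abbrev sg {k : ℕ} (v : Fin (k + 1) → P) : L P k := single v 1

/-- the boundary -/
noncomputable def bd (k : ℕ) : L P (k + 1) →ₗ[ZMod 2] L P k :=
  linearCombination (ZMod 2) fun v => ∑ i : Fin (k + 2), sg (fun j => v (i.succAbove j))

/-- the cone with vertex `b` -/
noncomputable def cone {k : ℕ} (b : P) : L P k →ₗ[ZMod 2] L P (k + 1) :=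
  linearCombination (ZMod 2) fun v => sg (Fin.cons b v : Fin (k + 2) → P)

/-- the push-forward of chains -/
noncomputable def pf {k : ℕ} (f : P → Q) : L P k →ₗ[ZMod 2] L Q k :=
  linearCombination (ZMod 2) fun v => sg (fun j => f (v j))

@[simp] theorem bd_sg (k : ℕ) (v : Fin (k + 2) → P) :
    bd k (sg v) = ∑ i : Fin (k + 2), sg (fun j => v (i.succAbove j)) := by
  simp [bd]

@[simp] theorem cone_sg {k : ℕ} (b : P) (v : Fin (k + 1) → P) :
    cone b (sg v) = sg (Fin.cons b v : Fin (k + 2) → P) := by
  simp [cone]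

@[simp] theorem pf_sg {k : ℕ} (f : P → Q) (v : Fin (k + 1) → P) :
    pf f (sg v) = sg (fun j => f (v j)) := by
  simp [pf]

theorem add_self {k : ℕ} (c : L P k) : c + c = 0 := by
  rw [← two_nsmul, ← Nat.cast_smul_eq_nsmul (ZMod 2)]
  have : ((2 : ℕ) : ZMod 2) = 0 := rfl
  rw [this, zero_smul]

/-- extensionality on generators -/
theorem hom_ext {k : ℕ} {M : Type*} [AddCommMonoid M] [Module (ZMod 2) M]
    {f g : L P k →ₗ[ZMod 2] M} (h : ∀ v, f (sg v) = g (sg v)) : f = g :=
  Finsupp.lhom_ext' fun v => LinearMap.ext_ring (h v)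

theorem cons_succAbove_succ {k : ℕ} (b : P) (v : Fin (k + 1) → P) (i : Fin (k + 1)) :
    (fun j : Fin (k + 1) => (Fin.cons b v : Fin (k + 2) → P) ((Fin.succ i).succAbove j)) =
      Fin.cons b (fun j : Fin k => v (i.succAbove j)) := by
  funext j
  refine Fin.cases ?_ (fun j => ?_) j
  · simp
  · simp

theorem bd_cone {k : ℕ} (b : P) (c : L P (k + 1)) :
    bd (k + 1) (cone b c) = c + cone b (bd k c) := by
  have : (bd (k + 1)).comp (cone b) = LinearMap.id + (cone b).comp (bd k) := by
    refine hom_ext fun v => ?_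
    rw [LinearMap.comp_apply, cone_sg, bd_sg, Fin.sum_univ_succ, LinearMap.add_apply,
      LinearMap.comp_apply, bd_sg, map_sum, LinearMap.id_apply]
    congr 1
    refine Finset.sum_congr rfl fun i _ => ?_
    rw [cone_sg, cons_succAbove_succ]
  exact LinearMap.congr_fun this c

/-- the augmentation -/
noncomputable def aug : L P 0 →ₗ[ZMod 2] ZMod 2 := linearCombination (ZMod 2) fun _ => 1

@[simp] theorem aug_sg (v : Fin 1 → P) : aug (sg v) = 1 := by simp [aug]

theorem bd_cone_zero (b : P) (c : L P 0) :
    bd 0 (cone b c) = c + aug c • sg (fun _ => b) := by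
  have : (bd 0).comp (cone b) = LinearMap.id + (aug (P := P)).smulRight (sg (fun _ => b)) := by
    refine hom_ext fun v => ?_
    rw [LinearMap.comp_apply, cone_sg, bd_sg, Fin.sum_univ_succ, LinearMap.add_apply,
      LinearMap.id_apply, LinearMap.smulRight_apply, aug_sg, one_smul, Fin.sum_univ_one]
    congr 2
    funext j
    rw [Fin.eq_zero j]
    simp
  exact LinearMap.congr_fun this c

theorem aug_bd (c : L P 1) : aug (bd 0 c) = 0 := by
  have : (aug (P := P)).comp (bd 0) = 0 := by
    refine hom_ext fun v => ?_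
    rw [LinearMap.comp_apply, bd_sg, map_sum, Fin.sum_univ_two]
    simp only [aug_sg, LinearMap.zero_apply]
    rfl
  exact LinearMap.congr_fun this c

theorem pf_cone {k : ℕ} (f : P → Q) (b : P) (c : L P k) :
    pf f (cone b c) = cone (f b) (pf f c) := by
  have : (pf f).comp (cone b) = (cone (f b)).comp (pf (k := k) f) := by
    refine hom_ext fun v => ?_
    rw [LinearMap.comp_apply, cone_sg, pf_sg, LinearMap.comp_apply, pf_sg, cone_sg]
    congr 1
    funext j
    refine Fin.cases ?_ (fun j => ?_) j
    · simp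
    · simp
  exact LinearMap.congr_fun this c

theorem pf_bd {k : ℕ} (f : P → Q) (c : L P (k + 1)) : pf f (bd k c) = bd k (pf f c) := by
  have : (pf f).comp (bd k) = (bd k).comp (pf (k := k + 1) f) := by
    refine hom_ext fun v => ?_
    rw [LinearMap.comp_apply, bd_sg, map_sum, LinearMap.comp_apply, pf_sg, bd_sg]
    refine Finset.sum_congr rfl fun i _ => ?_
    rw [pf_sg]
  exact LinearMap.congr_fun this c

/-- `∂∂ = 0` -/
theorem bd_bd (k : ℕ) (c : L P (k + 2)) : bd k (bd (k + 1) c) = 0 := by
  have : (bd k).comp (bd (P := P) (k + 1)) = 0 := by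
    refine hom_ext fun v => ?_
    rw [LinearMap.comp_apply, bd_sg, map_sum, LinearMap.zero_apply]
    -- sum over `i : Fin (k+3)`, `j : Fin (k+2)`
    simp only [bd_sg]
    rw [← Finset.sum_product']
    refine Finset.sum_involution
      (fun p _ => (p.1.succAbove p.2, p.2.predAbove p.1)) ?_ ?_ ?_ ?_
    · rintro ⟨i, j⟩ -
      have : (fun l : Fin (k + 1) => v (i.succAbove (j.succAbove l))) =
          fun l : Fin (k + 1) => v ((i.succAbove j).succAbove ((j.predAbove i).succAbove l)) := by
        funext l
        congr 1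
        exact (Fin.succAbove_succAbove_succAbove_predAbove i j l).symm
      simp only
      rw [this]
      exact add_self _
    · rintro ⟨i, j⟩ - - h
      exact absurd (congrArg Prod.fst h) (Fin.succAbove_ne i j)
    · rintro ⟨i, j⟩ -
      simp
    · rintro ⟨i, j⟩ -
      simp [Fin.succAbove_succAbove_predAbove, Fin.predAbove_predAbove_succAbove]
  exact LinearMap.congr_fun this c

section sub

variable (bar : ∀ {k : ℕ}, (Fin (k + 1) → P) → P)

/-- The barycentric subdivision. -/
noncomputable def S : ∀ k : ℕ, L P k →ₗ[ZMod 2] L P k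
  | 0 => LinearMap.id
  | k + 1 => linearCombination (ZMod 2) fun v => cone (bar v) (S k (bd k (sg v)))

/-- The chain homotopy. -/
noncomputable def T : ∀ k : ℕ, L P k →ₗ[ZMod 2] L P (k + 1)
  | 0 => 0
  | k + 1 => linearCombination (ZMod 2) fun v => cone (bar v) (sg v + T k (bd k (sg v)))

theorem S_zero (c : L P 0) : S (P := P) bar 0 c = c := rfl

theorem T_zero (c : L P 0) : T (P := P) bar 0 c = 0 := rfl

theorem S_succ_sg (k : ℕ) (v : Fin (k + 2) → P) :
    S (P := P) bar (k + 1) (sg v) = cone (bar v) (S bar k (bd k (sg v))) := by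
  simp only [S, linearCombination_single, one_smul]

theorem T_succ_sg (k : ℕ) (v : Fin (k + 2) → P) :
    T (P := P) bar (k + 1) (sg v) = cone (bar v) (sg v + T bar k (bd k (sg v))) := by
  simp only [T, linearCombination_single, one_smul]

/-- The subdivision is a chain map. -/
theorem bd_S (k : ℕ) (c : L P (k + 1)) :
    bd k (S bar (k + 1) c) = S bar k (bd k c) := by
  induction k with
  | zero =>
    have : (bd 0).comp (S (P := P) bar 1) = (S bar 0).comp (bd 0) := by
      refine hom_ext fun v => ?_
      rw [LinearMap.comp_apply, S_succ_sg, S_zero, bd_cone_zero, aug_bd, zero_smul, add_zero,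
        LinearMap.comp_apply, S_zero]
    exact LinearMap.congr_fun this c
  | succ k ih =>
    have : (bd (k + 1)).comp (S (P := P) bar (k + 2)) = (S bar (k + 1)).comp (bd (k + 1)) := by
      refine hom_ext fun v => ?_
      rw [LinearMap.comp_apply, S_succ_sg, bd_cone, ih, bd_bd, map_zero, map_zero, add_zero,
        LinearMap.comp_apply]
    exact LinearMap.congr_fun this c

/-- The chain homotopy. -/
theorem bd_T (k : ℕ) (c : L P (k + 1)) :
    bd (k + 1) (T bar (k + 1) c) + T bar k (bd k c) = c + S bar (k + 1) c := by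
  induction k with
  | zero =>
    have : (bd 1).comp (T (P := P) bar 1) + (T bar 0).comp (bd 0) = LinearMap.id + S bar 1 := by
      refine hom_ext fun v => ?_
      rw [LinearMap.add_apply, LinearMap.comp_apply, T_succ_sg, T_zero, add_zero, bd_cone,
        LinearMap.comp_apply, T_zero, add_zero, LinearMap.add_apply, LinearMap.id_apply,
        S_succ_sg, S_zero]
    exact LinearMap.congr_fun this c
  | succ k ih =>
    have : (bd (k + 2)).comp (T (P := P) bar (k + 2)) + (T bar (k + 1)).comp (bd (k + 1)) =
        LinearMap.id + S bar (k + 2) := by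
      refine hom_ext fun v => ?_
      have h := ih (bd (k + 1) (sg v))
      rw [bd_bd, map_zero, add_zero] at h
      rw [LinearMap.add_apply, LinearMap.comp_apply, T_succ_sg, bd_cone, map_add, h,
        LinearMap.comp_apply, LinearMap.add_apply, LinearMap.id_apply, S_succ_sg, ← add_assoc,
        add_self, zero_add]
      rw [add_right_comm, add_assoc (sg v), add_self, add_zero]
    exact LinearMap.congr_fun this c

variable (barQ : ∀ {k : ℕ}, (Fin (k + 1) → Q) → Q)

/-- Naturality of the subdivision. -/
theorem pf_S (f : P → Q) (hf : ∀ {k : ℕ} (v : Fin (k + 1) → P), f (bar v) = barQ (fun j => f (v j)))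
    (k : ℕ) (c : L P k) : pf f (S bar k c) = S barQ k (pf f c) := by
  induction k with
  | zero => rfl
  | succ k ih =>
    have : (pf f).comp (S (P := P) bar (k + 1)) = (S barQ (k + 1)).comp (pf f) := by
      refine hom_ext fun v => ?_
      rw [LinearMap.comp_apply, S_succ_sg, pf_cone, ih, pf_bd, LinearMap.comp_apply, pf_sg,
        S_succ_sg, hf]
    exact LinearMap.congr_fun this c

theorem pf_T (f : P → Q) (hf : ∀ {k : ℕ} (v : Fin (k + 1) → P), f (bar v) = barQ (fun j => f (v j)))
    (k : ℕ) (c : L P k) : pf f (T bar k c) = T barQ k (pf f c) := by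
  induction k with
  | zero => rw [T_zero, T_zero, map_zero]
  | succ k ih =>
    have : (pf f).comp (T (P := P) bar (k + 1)) = (T barQ (k + 1)).comp (pf f) := by
      refine hom_ext fun v => ?_
      rw [LinearMap.comp_apply, T_succ_sg, pf_cone, map_add, ih, pf_bd, LinearMap.comp_apply, pf_sg,
        T_succ_sg, hf]
    exact LinearMap.congr_fun this c

/-! ### Supports -/

/-- a linear map given on generators preserves a support condition -/
theorem lin_supported {A B : Type*} {s : Set A} {t : Set B}
    (φ : (A →₀ ZMod 2) →ₗ[ZMod 2] (B →₀ ZMod 2))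
    (h : ∀ a ∈ s, φ (single a 1) ∈ supported (ZMod 2) (ZMod 2) t) {c : A →₀ ZMod 2}
    (hc : c ∈ supported (ZMod 2) (ZMod 2) s) : φ c ∈ supported (ZMod 2) (ZMod 2) t := by
  rw [supported_eq_span_single] at hc
  induction hc using Submodule.span_induction with
  | mem x hx => obtain ⟨a, ha, rfl⟩ := hx; exact h a ha
  | zero => rw [map_zero]; exact Submodule.zero_mem _
  | add x y _ _ hx hy => rw [map_add]; exact Submodule.add_mem _ hx hy
  | smul r x _ hx => rw [map_smul]; exact Submodule.smul_mem _ r hx

theorem bd_supported {k : ℕ} {s : Set (Fin (k + 2) → P)} {t : Set (Fin (k + 1) → P)}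
    (h : ∀ v ∈ s, ∀ i : Fin (k + 2), (fun j => v (i.succAbove j)) ∈ t) {c : L P (k + 1)}
    (hc : c ∈ supported (ZMod 2) (ZMod 2) s) : bd k c ∈ supported (ZMod 2) (ZMod 2) t := by
  refine lin_supported (bd k) (fun v hv => ?_) hc
  rw [bd_sg]
  exact Submodule.sum_mem _ fun i _ => single_mem_supported _ _ (h v hv i)

end sub

end Vale.Agent.P263.T0.Tuple
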